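import Vale.Agent.P088.H72.B.Defs

/-!
# P088, stage 2, row HAD: division by a defining function (helper641)
-/

open Set Filter Topology MeasureTheory
open scoped ContDiff

noncomputable section

namespace Vale.Agent.P088.LR.B.H641

/-- smoothness of integrals over `[0, 1]` depending on a parameter -/
theorem contDiff_integral_unit {E : Type*} [NormedAddCommGroup E] [NormedSpace ℝ E]
    {g : E × ℝ → ℝ} (hg : ContDiff ℝ ∞ g) :
    ContDiff ℝ ∞ fun e => ∫ r in (0 : ℝ)..1, g (e, r) := by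
  set χ : ContDiffBump (0 : ℝ) := ⟨1, 2, by norm_num, by norm_num⟩ with hχ
  have hf : LocallyIntegrable (indicator (Ioc (-1 : ℝ) 0) fun _ => (1 : ℝ)) volume := by
    refine Integrable.locallyIntegrable ?_
    rw [integrable_indicator_iff measurableSet_Ioc]
    exact integrableOn_const (by simp)
  have h := contDiffOn_convolution_right_with_param_comp (𝕜 := ℝ) (μ := volume) (n := (⊤ : ℕ∞))
    (ContinuousLinearMap.mul ℝ ℝ) (s := (univ : Set E)) (v := fun _ => (0 : ℝ))
    contDiffOn_const (f := indicator (Ioc (-1 : ℝ) 0) fun _ => (1 : ℝ))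
    (g := fun e u => χ u * g (e, u)) (k := Metric.closedBall 0 2) isOpen_univ
    (isCompact_closedBall _ _) ?_ hf ?_
  · rw [contDiffOn_univ] at h
    have e : (fun e => ∫ r in (0 : ℝ)..1, g (e, r)) = fun e =>
        MeasureTheory.convolution (indicator (Ioc (-1 : ℝ) 0) fun _ => (1 : ℝ))
          (fun u => χ u * g (e, u)) (ContinuousLinearMap.mul ℝ ℝ) volume 0 := by
      funext e
      unfold MeasureTheory.convolution
      have h1 : ∀ t : ℝ, (ContinuousLinearMap.mul ℝ ℝ)
          ((indicator (Ioc (-1 : ℝ) 0) fun _ => (1 : ℝ)) t) (χ (0 - t) * g (e, 0 - t)) =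
          indicator (Ioc (-1 : ℝ) 0) (fun t => g (e, -t)) t := by
        intro t
        by_cases ht : t ∈ Ioc (-1 : ℝ) 0
        · have h2 : χ (-t) = 1 := χ.one_of_mem_closedBall (by
            rw [mem_closedBall_zero_iff, norm_neg, Real.norm_eq_abs, abs_le]
            exact ⟨ht.1.le, by linarith [ht.2]⟩)
          rw [indicator_of_mem ht, indicator_of_mem ht, zero_sub, h2]
          simp
        · rw [indicator_of_notMem ht, indicator_of_notMem ht]
          simp
      simp only [h1]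
      rw [integral_indicator measurableSet_Ioc, ← intervalIntegral.integral_of_le (by norm_num)]
      rw [intervalIntegral.integral_comp_neg (fun r => g (e, r))]
      simp
    rw [e]
    exact h
  · intro e u _ hu
    have : χ u = 0 := by
      refine χ.zero_of_le_dist ?_
      rw [Metric.mem_closedBall, not_le] at hu
      exact hu.le
    rw [this, zero_mul]
  · rw [univ_prod_univ, contDiffOn_univ]
    exact (χ.contDiff.comp contDiff_snd).mul hg

/-- division by a linear form -/
theorem had_lin {E : Type*} [NormedAddCommGroup E] [NormedSpace ℝ E] (l : E →L[ℝ] ℝ) (v : E)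
    (hv : l v = 1) {F : E → ℝ} (hF : ContDiff ℝ ∞ F) (h0 : ∀ y, l y = 0 → F y = 0) :
    ∃ G : E → ℝ, ContDiff ℝ ∞ G ∧ ∀ y, F y = l y * G y := by
  have hpt : ContDiff ℝ ∞ fun z : E × ℝ => z.1 - ((1 - z.2) * l z.1) • v := by fun_prop
  have hd : ContDiff ℝ ∞ fun z : E × ℝ => fderiv ℝ F (z.1 - ((1 - z.2) * l z.1) • v) := by
    have h1 : ContDiff ℝ ∞ (fderiv ℝ F) := hF.fderiv_right (m := ∞) (by simp)
    exact h1.comp hpt
  refine ⟨fun y => ∫ r in (0 : ℝ)..1, fderiv ℝ F (y - ((1 - r) * l y) • v) v, ?_, fun y => ?_⟩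
  · exact contDiff_integral_unit (g := fun z : E × ℝ =>
      fderiv ℝ F (z.1 - ((1 - z.2) * l z.1) • v) v) (hd.clm_apply contDiff_const)
  · have h1 : ∀ r : ℝ, HasDerivAt (fun r : ℝ => F (y - ((1 - r) * l y) • v))
        (l y * fderiv ℝ F (y - ((1 - r) * l y) • v) v) r := by
      intro r
      have h2 : HasFDerivAt F (fderiv ℝ F (y - ((1 - r) * l y) • v)) (y - ((1 - r) * l y) • v) :=
        (hF.differentiable (by simp) _).hasFDerivAt
      have h3 : HasDerivAt (fun r : ℝ => y - ((1 - r) * l y) • v) (l y • v) r := by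
        have h4 : HasDerivAt (fun r : ℝ => (1 - r) * l y) (-(l y)) r := by
          simpa using ((hasDerivAt_id r).const_sub 1).mul_const (l y)
        have h5 := (h4.smul_const v).const_sub y
        simpa using h5
      have h6 := h2.comp_hasDerivAt r h3
      rw [map_smul, smul_eq_mul] at h6
      exact h6
    have hc : Continuous fun r : ℝ => fderiv ℝ F (y - ((1 - r) * l y) • v) :=
      hd.continuous.comp (by fun_prop : Continuous fun r : ℝ => (y, r))
    have h4 : ∫ r in (0 : ℝ)..1, l y * fderiv ℝ F (y - ((1 - r) * l y) • v) v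
        = F y - F (y - l y • v) := by
      have := intervalIntegral.integral_eq_sub_of_hasDerivAt (a := (0 : ℝ)) (b := 1)
        (fun r _ => h1 r)
        ((continuous_const.mul (hc.clm_apply continuous_const)).intervalIntegrable _ _)
      simpa using this
    have h5 : F (y - l y • v) = 0 := h0 _ (by rw [map_sub, map_smul, hv]; simp)
    rw [h5, sub_zero, intervalIntegral.integral_const_mul] at h4
    exact h4.symm

/-- local form of (HAD) at a zero of `ρ` -/
theorem had_loc {E : Type*} [NormedAddCommGroup E] [NormedSpace ℝ E] [FiniteDimensional ℝ E]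
    {ρ f : E → ℝ} (hρ : ContDiff ℝ ∞ ρ) (hf : ContDiff ℝ ∞ f) (h0 : ∀ x, ρ x = 0 → f x = 0)
    {p : E} (hp : ρ p = 0) (hd : fderiv ℝ ρ p ≠ 0) :
    ∃ g : E → ℝ, ContDiff ℝ ∞ g ∧ ∀ᶠ x in 𝓝 p, f x = ρ x * g x := by
  have : CompleteSpace E := FiniteDimensional.complete ℝ E
  obtain ⟨v, hv⟩ : ∃ v, fderiv ℝ ρ p v = 1 := by
    obtain ⟨w, hw⟩ : ∃ w, fderiv ℝ ρ p w ≠ 0 := by
      by_contra hcon
      push Not at hcon
      exact hd (ContinuousLinearMap.ext fun w => by simpa using hcon w)
    exact ⟨(fderiv ℝ ρ p w)⁻¹ • w, by rw [map_smul, smul_eq_mul, inv_mul_cancel₀ hw]⟩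
  set l : E →L[ℝ] ℝ := fderiv ℝ ρ p with hl
  -- the straightening map, centred at `0`
  set Φ : E → E := fun x => (x - p) + (ρ x - l (x - p)) • v with hΦ
  have hΦs : ContDiff ℝ ∞ Φ := by
    have h1 : ContDiff ℝ ∞ fun x : E => x - p := contDiff_id.sub contDiff_const
    exact h1.add ((hρ.sub (l.contDiff.comp h1)).smul contDiff_const)
  have hΦp : Φ p = 0 := by simp [hΦ, hp]
  have hlΦ : ∀ x, l (Φ x) = ρ x := by
    intro x
    simp only [hΦ, map_add, map_smul, hv, smul_eq_mul, mul_one]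
    ring
  have hD : HasFDerivAt Φ ((ContinuousLinearEquiv.refl ℝ E : E ≃L[ℝ] E) : E →L[ℝ] E) p := by
    have h1 : HasFDerivAt (fun x : E => x - p) (ContinuousLinearMap.id ℝ E) p :=
      (hasFDerivAt_id p).sub_const p
    have h2 : HasFDerivAt ρ l p := (hρ.differentiable (by simp) p).hasFDerivAt
    have h3 : HasFDerivAt (fun x : E => l (x - p)) (l.comp (ContinuousLinearMap.id ℝ E)) p :=
      l.hasFDerivAt.comp p h1
    rw [ContinuousLinearMap.comp_id] at h3
    have h4 := h1.add ((h2.sub h3).smul_const v)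
    refine h4.congr_fderiv ?_
    ext w
    simp
  have hD' : ContDiffAt ℝ ∞ Φ p := hΦs.contDiffAt
  set e := hD'.toOpenPartialHomeomorph Φ hD (by simp) with he
  have hpe : p ∈ e.source := hD'.mem_toOpenPartialHomeomorph_source hD (by simp)
  have hecoe : (e : E → E) = Φ := hD'.toOpenPartialHomeomorph_coe hD (by simp)
  -- the open set where the inverse is smooth
  have hU : ∀ᶠ x in 𝓝 p, fderiv ℝ Φ x ∈ range ((↑) : (E ≃L[ℝ] E) → E →L[ℝ] E) := by
    have hc : ContinuousAt (fderiv ℝ Φ) p := (hΦs.continuous_fderiv (by simp)).continuousAt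
    have h1 : range ((↑) : (E ≃L[ℝ] E) → E →L[ℝ] E) ∈ 𝓝 (fderiv ℝ Φ p) := by
      rw [hD.fderiv]
      exact ContinuousLinearEquiv.nhds _
    exact hc h1
  have hW : ∀ᶠ y in 𝓝 (0 : E), y ∈ e.target ∧
      fderiv ℝ Φ (e.symm y) ∈ range ((↑) : (E ≃L[ℝ] E) → E →L[ℝ] E) := by
    have h0t : (0 : E) ∈ e.target := by
      have := e.map_source hpe
      rwa [hecoe, hΦp] at this
    have hs0 : e.symm 0 = p := by
      have := e.left_inv hpe
      rwa [hecoe, hΦp] at this
    refine Filter.Eventually.and (e.open_target.mem_nhds h0t) ?_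
    have hc : Tendsto e.symm (𝓝 0) (𝓝 p) := by
      have := (e.continuousAt_symm h0t).tendsto
      rwa [hs0] at this
    exact hc hU
  obtain ⟨R, hR, hRW⟩ := Metric.eventually_nhds_iff_ball.mp hW
  set χ : ContDiffBump (0 : E) := ⟨R / 4, R / 2, by positivity, by linarith⟩ with hχ
  set F : E → ℝ := fun y => χ y * f (e.symm y) with hF
  have hFs : ContDiff ℝ ∞ F := by
    rw [contDiff_iff_contDiffAt]
    intro y
    by_cases hy : y ∈ Metric.ball (0 : E) R
    · obtain ⟨hyt, A, hA⟩ := hRW y hy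
      have h1 : ContDiffAt ℝ ∞ e.symm y := by
        refine e.contDiffAt_symm hyt (f₀' := A) ?_ ?_
        · rw [hecoe, hA]
          exact (hΦs.differentiable (by simp) _).hasFDerivAt
        · rw [hecoe]
          exact hΦs.contDiffAt
      exact χ.contDiff.contDiffAt.mul (hf.contDiffAt.comp y h1)
    · have h2 : F =ᶠ[𝓝 y] fun _ => 0 := by
        have h3 : ∀ᶠ z in 𝓝 y, R / 2 < dist z 0 := by
          have h4 : R / 2 < dist y 0 := by
            rw [Metric.mem_ball, not_lt] at hy
            linarith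
          exact (continuous_id.dist continuous_const).continuousAt.eventually_const_lt h4
        filter_upwards [h3] with z hz
        have : χ z = 0 := χ.zero_of_le_dist hz.le
        simp [hF, this]
      exact contDiffAt_const.congr_of_eventuallyEq h2
  have hF0 : ∀ y, l y = 0 → F y = 0 := by
    intro y hy
    by_cases hyR : y ∈ Metric.ball (0 : E) R
    · obtain ⟨hyt, _⟩ := hRW y hyR
      have h1 : Φ (e.symm y) = y := by
        rw [← hecoe]
        exact e.right_inv hyt
      have h2 : ρ (e.symm y) = 0 := by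
        rw [← hlΦ, h1, hy]
      simp [hF, h0 _ h2]
    · have : χ y = 0 := by
        refine χ.zero_of_le_dist ?_
        rw [Metric.mem_ball, not_lt] at hyR
        show R / 2 ≤ dist y 0
        linarith
      simp [hF, this]
  obtain ⟨G, hG, hFG⟩ := had_lin l v hv hFs hF0
  refine ⟨fun x => G (Φ x), hG.comp hΦs, ?_⟩
  have hn : ∀ᶠ x in 𝓝 p, Φ x ∈ Metric.closedBall (0 : E) (R / 4) := by
    have h1 : ContinuousAt Φ p := hΦs.continuous.continuousAt
    have h2 : Metric.closedBall (0 : E) (R / 4) ∈ 𝓝 (Φ p) := by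
      rw [hΦp]
      exact Metric.closedBall_mem_nhds _ (by positivity)
    exact h1 h2
  filter_upwards [hn, e.open_source.mem_nhds hpe] with x hx hxs
  have h1 : χ (Φ x) = 1 := χ.one_of_mem_closedBall hx
  have h2 : e.symm (Φ x) = x := by
    have := e.left_inv hxs
    rwa [hecoe] at this
  have h3 := hFG (Φ x)
  rw [hlΦ] at h3
  simp only [hF, h1, h2, one_mul] at h3
  exact h3

/-- (HAD) in any finite dimensional space -/
theorem had {E : Type*} [NormedAddCommGroup E] [NormedSpace ℝ E] [FiniteDimensional ℝ E]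
    {ρ : E → ℝ} (hρ : ContDiff ℝ ∞ ρ) (hd : ∀ x, ρ x = 0 → fderiv ℝ ρ x ≠ 0)
    {f : E → ℝ} (hf : ContDiff ℝ ∞ f) (h0 : ∀ x, ρ x = 0 → f x = 0) :
    ∃ g : E → ℝ, ContDiff ℝ ∞ g ∧ ∀ x, f x = ρ x * g x := by
  have hloc : ∀ p : E, ∃ (U : Set E) (g : E → ℝ), IsOpen U ∧ p ∈ U ∧ ContDiffOn ℝ ∞ g U ∧
      ∀ x ∈ U, f x = ρ x * g x := by
    intro p
    by_cases hp : ρ p = 0
    · obtain ⟨g, hg, hge⟩ := had_loc hρ hf h0 hp (hd p hp)
      obtain ⟨U, hU, hUo, hpU⟩ := eventually_nhds_iff.mp hge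
      exact ⟨U, g, hUo, hpU, hg.contDiffOn, hU⟩
    · refine ⟨{x | ρ x ≠ 0}, fun x => f x / ρ x, isOpen_ne_fun hρ.continuous continuous_const, hp,
        hf.contDiffOn.div hρ.contDiffOn fun x hx => hx, fun x hx => ?_⟩
      have hx' : ρ x ≠ 0 := hx
      field_simp
  choose U g hUo hpU hgs hge using hloc
  have hkey : ∀ p x, x ∈ U p → g x x = g p x := by
    intro p x hx
    by_contra hne
    have hc1 : ContinuousAt (g x) x :=
      ((hgs x).continuousOn).continuousAt ((hUo x).mem_nhds (hpU x))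
    have hc2 : ContinuousAt (g p) x :=
      ((hgs p).continuousOn).continuousAt ((hUo p).mem_nhds hx)
    have h1 : ∀ᶠ y in 𝓝 x, g x y - g p y ≠ 0 := (hc1.sub hc2).eventually_ne (sub_ne_zero.mpr hne)
    have h2 : ∀ᶠ y in 𝓝 x, ρ y = 0 := by
      filter_upwards [h1, (hUo x).mem_nhds (hpU x), (hUo p).mem_nhds hx] with y hy1 hy2 hy3
      by_contra hy
      have h3 := hge x y hy2
      rw [hge p y hy3] at h3
      exact hy1 (sub_eq_zero.mpr (mul_left_cancel₀ hy h3).symm)
    have h3 : ρ =ᶠ[𝓝 x] fun _ => (0 : ℝ) := h2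
    have h4 := h3.fderiv_eq (𝕜 := ℝ)
    rw [fderiv_fun_const] at h4
    exact hd x h3.eq_of_nhds (by simpa using h4)
  refine ⟨fun x => g x x, ?_, fun x => hge x x (hpU x)⟩
  rw [contDiff_iff_contDiffAt]
  intro p
  have h1 : ContDiffAt ℝ ∞ (g p) p := (hgs p).contDiffAt ((hUo p).mem_nhds (hpU p))
  refine h1.congr_of_eventuallyEq ?_
  filter_upwards [(hUo p).mem_nhds (hpU p)] with x hx
  exact hkey p x hx

/-- the zero set of `ρ` has empty interior -/
theorem dense_ne {E : Type*} [NormedAddCommGroup E] [NormedSpace ℝ E]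
    {ρ : E → ℝ} (hd : ∀ x, ρ x = 0 → fderiv ℝ ρ x ≠ 0) : Dense {x | ρ x ≠ 0} := by
  intro x
  by_contra hx
  rw [mem_closure_iff_frequently, not_frequently] at hx
  have h3 : ρ =ᶠ[𝓝 x] fun _ => (0 : ℝ) := by
    filter_upwards [hx] with y hy
    simpa using hy
  have h4 := h3.fderiv_eq (𝕜 := ℝ)
  rw [fderiv_fun_const] at h4
  exact hd x h3.eq_of_nhds (by simpa using h4)

/-- row HAD -/
theorem rowHAD : RowHAD := fun _ hρ hd _ hf h0 => had hρ hd hf h0

end Vale.Agent.P088.LR.B.H641
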