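import Vale.Agent.P088.H198.E.Defs
import Vale.Agent.P088.H607.YBd

/-!
# P088, theorem E: the boundary step (row E_BD)

The energy estimate with the lower bound `μ` on the tensor `t` instead of the smallness of
`t - σ · 1`, and the boundary step with the smallness on `{ρ = 0}` only.
-/

open MeasureTheory Set Filter
open scoped ContDiff Matrix Topology

noncomputable section

namespace Vale.Agent.P088.LR.E.H641

open Vale.Agent.P088.LR Vale.Agent.P088.LR.B Vale.Agent.P088.LR.B.H43 Vale.Agent.P088.H639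
  Vale.Agent.P088.H884 Vale.Agent.P088.H109 Vale.Agent.P088.H607
open Vale.Agent.P088.LR.CF (sc)

variable {n : ℕ}

theorem pt_ineq {m : ℝ} (hm : 0 < m) (S T : Matrix (Fin n) (Fin n) ℝ) (hT : T.IsSymm)
    (hSs : S.IsSymm) (a b : Fin n → ℝ)
    (h1 : (m / 2) * ∑ i, b i ^ 2 ≤ ∑ i, ∑ j, T i j * b i * b j) :
    -((2 / m) * ∑ i, (∑ j, (T i j - S i j) * a j) ^ 2) ≤
      2 * ∑ i, ∑ j, (T i j - S i j) * a i * b j + ∑ i, ∑ j, T i j * b i * b j := by
  have e : ∑ i, ∑ j, (T i j - S i j) * a i * b j =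
      ∑ i, (∑ j, (T i j - S i j) * a j) * b i := by
    rw [Finset.sum_comm]
    refine Finset.sum_congr rfl fun j _ => ?_
    rw [Finset.sum_mul]
    refine Finset.sum_congr rfl fun i _ => ?_
    rw [hT.apply i j, hSs.apply i j]
  have h2 : -((2 / m) * ∑ i, (∑ j, (T i j - S i j) * a j) ^ 2) - (m / 2) * ∑ i, b i ^ 2 ≤
      2 * ∑ i, (∑ j, (T i j - S i j) * a j) * b i := by
    rw [Finset.mul_sum, Finset.mul_sum, Finset.mul_sum, ← Finset.sum_neg_distrib,
      ← Finset.sum_sub_distrib]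
    refine Finset.sum_le_sum fun i _ => ?_
    have h3 : 0 ≤ (1 / (2 * m)) * (2 * (∑ j, (T i j - S i j) * a j) + m * b i) ^ 2 := by
      positivity
    have h4 : (1 / (2 * m)) * (2 * (∑ j, (T i j - S i j) * a j) + m * b i) ^ 2 =
        (2 / m) * (∑ j, (T i j - S i j) * a j) ^ 2 +
          2 * ((∑ j, (T i j - S i j) * a j) * b i) + (m / 2) * b i ^ 2 := by
      field_simp
      ring
    linarith
  rw [e]
  linarith

theorem rb_low {Ω : Set (V n)} (hO : MeasurableSet Ω) (hb : Bornology.IsBounded Ω) {s t : MF n}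
    {m : ℝ} (hm : 0 < m) (hsc : ∀ i j, Continuous fun x => s x i j)
    (hss : ∀ x, (s x).IsSymm) (ht : ∀ i j, Continuous fun x => t x i j)
    (hsym : ∀ x, (t x).IsSymm)
    (hlow : ∀ x ∈ Ω, ∀ b : Fin n → ℝ,
      (m / 2) * ∑ i, b i ^ 2 ≤ ∑ i, ∑ j, t x i j * b i * b j)
    {U v : V n → ℝ} (hU : Sl Ω s U) (hv : ContDiff ℝ ∞ v)
    (hvU : ∀ x ∈ frontier Ω, v x = U x) :
    rb Ω t U U - (2 / m) * ∫ x in Ω, qfx s t U x ≤ rb Ω t v v := by
  have hR : ContDiff ℝ ∞ (fun y => v y + (-1) * U y) := hv.add (contDiff_const.mul hU.1)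
  have hR0 : rb Ω s U (fun y => v y + (-1) * U y) = 0 :=
    hU.2 _ hR fun x hx => by rw [hvU x hx]; ring
  have htc : ∀ i j, Continuous fun x => (fun x => t x - s x : MF n) x i j := fun i j =>
    (ht i j).sub (hsc i j)
  have e0 : v = fun y => U y + (v y + (-1) * U y) := by funext y; ring
  have e1 : rb Ω t v v = rb Ω t U U + 2 * rb Ω (fun x => t x - s x) U (fun y => v y + (-1) * U y) +
      rb Ω t (fun y => v y + (-1) * U y) (fun y => v y + (-1) * U y) := by
    rw [rb_subx hb hsc ht hU.1 hR, hR0, sub_zero, ← rb_sq_add hb ht hsym hU.1 hR, ← e0]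
  have key : -((2 / m) * ∫ x in Ω, qfx s t U x) ≤
      2 * rb Ω (fun x => t x - s x) U (fun y => v y + (-1) * U y) +
        rb Ω t (fun y => v y + (-1) * U y) (fun y => v y + (-1) * U y) := by
    unfold rb
    rw [← integral_const_mul, ← integral_const_mul, ← integral_neg,
      ← integral_add ((rb_integrable hb htc hU.1 hR).const_mul 2) (rb_integrable hb ht hR hR)]
    refine setIntegral_mono_on ((qfx_integrable hb hsc ht hU.1).const_mul (2 / m)).neg
      (((rb_integrable hb htc hU.1 hR).const_mul 2).add (rb_integrable hb ht hR hR)) hO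
      fun x hx => ?_
    exact pt_ineq hm (s x) (t x) (hsym x) (hss x) (fun i => pd i U x) _ (hlow x hx _)
  rw [e1]
  linarith

/-- **Energy estimate**, lower bound on `t`, for real solutions. -/
theorem en_real {Ω : Set (V n)} (hO : MeasurableSet Ω) (hb : Bornology.IsBounded Ω) {s t : MF n}
    {m : ℝ} (hm : 0 < m) (hsc : ∀ i j, Continuous fun x => s x i j)
    (hsp : ∀ x, (s x).PosSemidef)
    (ht : ∀ i j, Continuous fun x => t x i j) (hsym : ∀ x, (t x).IsSymm)
    (hlow : ∀ x ∈ Ω, ∀ b : Fin n → ℝ,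
      (m / 2) * ∑ i, b i ^ 2 ≤ ∑ i, ∑ j, t x i j * b i * b j)
    (hSE : SE Ω s t) {U : V n → ℝ} (hU : Sl Ω s U) :
    0 ≤ rb Ω (fun x => t x - s x) U U ∧
      rb Ω (fun x => t x - s x) U U ≤ (2 / m) * ∫ x in Ω, qfx s t U x := by
  have hss : ∀ x, (s x).IsSymm := fun x => by
    have h := (hsp x).1
    rw [Matrix.IsHermitian, Matrix.conjTranspose_eq_transpose_of_trivial] at h
    exact h
  have h1 : En Ω s U = rb Ω s U U := En_sol hb hsc hss hsp hU
  have h2 : En Ω t U = rb Ω s U U := by rw [← hSE U hU.1, h1]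
  have hlow' : ∀ e ∈ {e | ∃ u : V n → ℝ, ContDiff ℝ ∞ u ∧ (∀ x ∈ frontier Ω, u x = U x) ∧
      e = rb Ω t u u}, rb Ω t U U - (2 / m) * ∫ x in Ω, qfx s t U x ≤ e := by
    rintro e ⟨u, hu, huU, rfl⟩
    exact rb_low hO hb hm hsc hss ht hsym hlow hU hu huU
  have h3 : rb Ω t U U - (2 / m) * ∫ x in Ω, qfx s t U x ≤ En Ω t U :=
    le_csInf ⟨_, U, hU.1, fun _ _ => rfl, rfl⟩ hlow'
  have h4 : En Ω t U ≤ rb Ω t U U := csInf_le ⟨_, hlow'⟩ ⟨U, hU.1, fun _ _ => rfl, rfl⟩
  rw [rb_subx hb hsc ht hU.1 hU.1]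
  constructor <;> linarith

/-- The energy estimate with the lower bound `m / 2` of `t`. -/
theorem en_gen {Ω : Set (V n)} (hO : IsOpen Ω) (hb : Bornology.IsBounded Ω) {s t : MF n}
    {m : ℝ} (hm : 0 < m) (hs : SmM s) (hsp : ∀ x, (s x).PosSemidef)
    (ht : SmM t) (hsym : ∀ x, (t x).IsSymm) (hSE : SE Ω s t)
    (hlow : ∀ x ∈ Ω, ∀ b : Fin n → ℝ,
      (m / 2) * ∑ i, b i ^ 2 ≤ ∑ i, ∑ j, t x i j * b i * b j)
    {U : V n → ℂ} (hU : ContDiff ℝ ∞ U) (hU0 : ∀ x ∈ Ω, dv s U x = 0) :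
    ‖bl Ω (fun x => t x - s x) U (fun x => (starRingEnd ℂ) (U x))‖ ≤
      2 * n / m * ∫ x in Ω, ∑ i, ∑ j, |t x i j - s x i j| ^ 2 * ‖pd j U x‖ ^ 2 := by
  have htc : ∀ i j, Continuous fun x => t x i j := fun i j => (ht i j).continuous
  have hsc : ∀ i j, Continuous fun x => s x i j := fun i j => (hs i j).continuous
  have hss : ∀ x, (s x).IsSymm := fun x => by
    have h := (hsp x).1
    rw [Matrix.IsHermitian, Matrix.conjTranspose_eq_transpose_of_trivial] at h
    exact h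
  have u1 : Sl Ω s (rp U) :=
    Sl_of_dv Vale.Agent.P088.LR.weak hO hb hs hss (rp_contDiff hU)
      fun x hx => by rw [(dv_parts hs hU x).1, hU0 x hx]; simp
  have u2 : Sl Ω s (mp U) :=
    Sl_of_dv Vale.Agent.P088.LR.weak hO hb hs hss (mp_contDiff hU)
      fun x hx => by rw [(dv_parts hs hU x).2, hU0 x hx]; simp
  have r1 := en_real hO.measurableSet hb hm hsc hsp htc hsym hlow hSE u1
  have r2 := en_real hO.measurableSet hb hm hsc hsp htc hsym hlow hSE u2
  have hhc : ∀ i j, Continuous fun x => (fun x => t x - s x : MF n) x i j := fun i j =>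
    (htc i j).sub (hsc i j)
  have hhs : ∀ x, (t x - s x).IsSymm := fun x => (hsym x).sub (hss x)
  rw [bl_conj hb hhc hhs hU, Complex.norm_real, Real.norm_eq_abs,
    abs_of_nonneg (add_nonneg r1.1 r2.1)]
  have hcr : ∀ j, Continuous fun x => ‖pd j U x‖ := fun j => (pd_continuous hU j).norm
  have hint : IntegrableOn (fun x => ∑ i, ∑ j, |t x i j - s x i j| ^ 2 * ‖pd j U x‖ ^ 2) Ω := by
    refine (Continuous.continuousOn ?_ |>.integrableOn_compact hb.isCompact_closure).mono_set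
      subset_closure
    refine continuous_finsetSum _ fun i _ => continuous_finsetSum _ fun j _ => ?_
    exact (((htc i j).sub (hsc i j)).abs.pow 2).mul ((hcr j).pow 2)
  have hle : ∫ x in Ω, (qfx s t (rp U) x + qfx s t (mp U) x) ≤
      ∫ x in Ω, n * ∑ i, ∑ j, |t x i j - s x i j| ^ 2 * ‖pd j U x‖ ^ 2 := by
    refine setIntegral_mono_on
      ((qfx_integrable hb hsc htc u1.1).add (qfx_integrable hb hsc htc u2.1))
      (hint.const_mul _) hO.measurableSet fun x _ => ?_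
    have q1 := qfx_le s t (rp U) x
    have q2 := qfx_le s t (mp U) x
    have e : ∑ i, ∑ j, |t x i j - s x i j| ^ 2 * ‖pd j U x‖ ^ 2 =
        ∑ i, ∑ j, |t x i j - s x i j| ^ 2 * pd j (rp U) x ^ 2 +
        ∑ i, ∑ j, |t x i j - s x i j| ^ 2 * pd j (mp U) x ^ 2 := by
      rw [← Finset.sum_add_distrib]
      refine Finset.sum_congr rfl fun i _ => ?_
      rw [← Finset.sum_add_distrib]
      refine Finset.sum_congr rfl fun j _ => ?_
      rw [pd_rp (hU.differentiable (by simp) x), pd_mp (hU.differentiable (by simp) x),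
        ← Complex.normSq_eq_norm_sq, Complex.normSq_apply]
      ring
    rw [e, mul_add]
    linarith
  rw [integral_add (qfx_integrable hb hsc htc u1.1) (qfx_integrable hb hsc htc u2.1),
    integral_const_mul] at hle
  have hm0 : 0 ≤ 2 / m := by positivity
  calc rb Ω (fun x => t x - s x) (rp U) (rp U) + rb Ω (fun x => t x - s x) (mp U) (mp U)
      ≤ (2 / m) * (∫ x in Ω, qfx s t (rp U) x) + (2 / m) * ∫ x in Ω, qfx s t (mp U) x :=
        add_le_add r1.2 r2.2
    _ = (2 / m) * ((∫ x in Ω, qfx s t (rp U) x) + ∫ x in Ω, qfx s t (mp U) x) := by ring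
    _ ≤ (2 / m) * (n * ∫ x in Ω, ∑ i, ∑ j, |t x i j - s x i j| ^ 2 * ‖pd j U x‖ ^ 2) := by gcongr
    _ = _ := by ring

/-- The boundary step from the key estimate, smallness on `{ρ = 0}` only. -/
lemma bd_core {ρ : V n → ℝ} (hρ : Dom ρ) {t : MF n} {σ : V n → ℝ} {K a : ℝ} (hK : 0 ≤ K)
    (hKa : n * (n * (K * a)) ≤ 1 / 2)
    (ha : ∀ x, ρ x = 0 → ∀ i j, |t x i j - sc σ x i j| ≤ a)
    {m : ℕ} {b : Fin n → Fin n → V n → ℝ}
    (hkey : ∀ {p : V n}, ρ p = 0 → ∀ {ν τ : V n}, ∑ i, ν i ^ 2 = 1 → ∑ i, τ i ^ 2 = 1 →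
      ∑ i, ν i * τ i = 0 → (∃ c > 0, ∀ i, pd i ρ p = c * ν i) → (∀ i, ∑ j, b i j p * ν j = 0) →
      |∑ i, ∑ j, b i j p * (τ i * τ j)| ≤ K * (ρ p ^ m * ∑ i, ∑ j, b i j p ^ 2))
    (hs : ∀ i j x, b i j x = b j i x) (hh : ∀ x i j, t x i j - sc σ x i j = ρ x ^ m * b i j x)
    (hbν : ∀ x, ρ x = 0 → ∀ i, ∑ j, b i j x * pd j ρ x = 0) :
    ∀ x, ρ x = 0 → ∀ i j, b i j x = 0 := by
  intro p hp
  set g : V n := fun i => pd i ρ p with hg
  set S0 : ℝ := ∑ i, g i ^ 2 with hS0
  have hS0n : 0 ≤ S0 := Finset.sum_nonneg fun i _ => sq_nonneg _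
  have hS0p : 0 < S0 := by
    refine lt_of_le_of_ne hS0n fun h0 => hρ.nz p hp ?_
    have hz : ∀ i, g i = 0 := fun i =>
      pow_eq_zero_iff two_ne_zero |>.1 ((Finset.sum_eq_zero_iff_of_nonneg fun i _ =>
        sq_nonneg (g i)).1 h0.symm i (Finset.mem_univ i))
    refine ContinuousLinearMap.coe_injective (LinearMap.pi_ext' fun i => LinearMap.ext_ring ?_)
    have h1 : (fderiv ℝ ρ p) (Pi.single i 1) = 0 := hz i
    simpa using h1
  set c : ℝ := √S0 with hc'
  have hc0 : 0 < c := Real.sqrt_pos.2 hS0p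
  have hcc : c ^ 2 = S0 := Real.sq_sqrt hS0n
  set ν : V n := fun i => g i / c with hνd
  have hν1 : ∑ i, ν i ^ 2 = 1 := by
    have h : ∑ i, ν i ^ 2 = S0 / c ^ 2 := by
      rw [hS0, Finset.sum_div]
      exact Finset.sum_congr rfl fun i _ => by simp only [hνd]; ring
    rw [h, hcc, div_self hS0p.ne']
  have hνc : ∃ c > 0, ∀ i, pd i ρ p = c * ν i :=
    ⟨c, hc0, fun i => by simp only [hνd, hg]; field_simp⟩
  have hbν' : ∀ i, ∑ j, b i j p * ν j = 0 := fun i => by
    have h : ∑ j, b i j p * ν j = (∑ j, b i j p * pd j ρ p) / c := by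
      rw [Finset.sum_div]
      exact Finset.sum_congr rfl fun j _ => by simp only [hνd, hg]; ring
    rw [h, hbν p hp i, zero_div]
  set S : ℝ := ∑ i, ∑ j, b i j p ^ 2 with hS
  have hS00 : 0 ≤ S := Finset.sum_nonneg fun i _ => Finset.sum_nonneg fun j _ => sq_nonneg _
  have hρm : 0 ≤ ρ p ^ m := by rw [hp]; positivity
  have hκ : 0 ≤ K * (ρ p ^ m * S) := by positivity
  have hpol := polar (fun i j => hs i j p) hν1 hbν' hκ fun τ h2 h3 =>
    hkey hp hν1 h2 h3 hνc hbν'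
  rcases Nat.eq_zero_or_pos m with hm | hm
  · subst hm
    have hcl : ∀ i j, |b i j p| ≤ a := by
      intro i j
      have h2 := ha p hp i j
      rwa [hh p i j, pow_zero, one_mul] at h2
    simp only [pow_zero, one_mul] at hpol
    have h1 : S ≤ ∑ i : Fin n, ∑ j : Fin n, K * S * a := by
      rw [hS]
      refine Finset.sum_le_sum fun i _ => Finset.sum_le_sum fun j _ => ?_
      rw [← sq_abs, sq]
      exact mul_le_mul (hpol i j) (hcl i j) (abs_nonneg _) (by positivity)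
    rw [Finset.sum_const, Finset.sum_const, Finset.card_univ, Fintype.card_fin, nsmul_eq_mul,
      nsmul_eq_mul] at h1
    have h2 : (n : ℝ) * (n * (K * S * a)) ≤ S / 2 := by
      calc (n : ℝ) * (n * (K * S * a)) = n * (n * (K * a)) * S := by ring
        _ ≤ 1 / 2 * S := by gcongr
        _ = S / 2 := by ring
    have h3 : S = 0 := by linarith
    intro i j
    have h4 := hpol i j
    rw [h3, mul_zero] at h4
    exact abs_nonpos_iff.1 h4
  · intro i j
    have h4 := hpol i j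
    rw [hp, zero_pow hm.ne', zero_mul, mul_zero] at h4
    exact abs_nonpos_iff.1 h4

/-- **Row E_BD.** -/
theorem bd (hCON : BX.RowCON) : E.RowBD := by
  intro n hn μ hμ
  have hn0 : (0 : ℝ) < n := by
    have : 0 < n := by omega
    exact_mod_cast this
  refine ⟨μ / (16 * n ^ 3), by positivity, ?_⟩
  intro ρ hρ σ hσ hσμ t ht hsym hlow hSE ha m b hb hs hh hbν
  have hσ0 : ∀ x, 0 < σ x := fun x => lt_of_lt_of_le hμ (hσμ x)
  have hO : IsOpen (Om ρ) := isOpen_lt continuous_const hρ.sm.continuous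
  have hss : SmM (sc σ) := fun i j => by
    simp only [sc_apply]
    exact hσ.mul contDiff_const
  refine bd_core hρ (K := 2 * (2 * n / (2 * μ))) (a := μ / (16 * n ^ 3)) (by positivity) ?_ ha
    (keyX hρ hCON ⟨hσ, hσ0⟩ (by positivity) (fun U hU hU0 => ?_) hb hs hh) hs hh hbν
  · have h2 : (n : ℝ) * (n * (2 * (2 * n / (2 * μ)) * (μ / (16 * n ^ 3)))) = 1 / 8 := by
      field_simp
      norm_num
    rw [h2]; norm_num
  · refine en_gen hO (Om_bounded hρ) (m := 2 * μ) (by positivity) hss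
      (sc_posSemidef fun x => (hσ0 x).le) ht hsym hSE (fun x _ v => ?_) hU hU0
    have h := hlow x v
    have h3 : 2 * μ / 2 = μ := by ring
    rw [h3]
    exact h

end Vale.Agent.P088.LR.E.H641
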