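import Vale.Agent.P088.H925.ECz
import Vale.Agent.P088.H641.BHad
import Vale.Agent.P088.H738.E2.Defs

/-!
# P088, theorem E by compactness: isotropic boundary determination (row I1)

Two positive isotropic coefficients `σ · 1`, `ψ · 1` with the same Dirichlet energies agree to
infinite order on the boundary.
-/

open MeasureTheory Set Filter Topology
open scoped ContDiff Matrix

noncomputable section

namespace Vale.Agent.P088.LR.E.H641

open Vale.Agent.P088.LR Vale.Agent.P088.LR.B Vale.Agent.P088.LR.B.H43 Vale.Agent.P088.H639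
open Vale.Agent.P088.LR.CF (sc)
open Vale.Agent.P088.H109 (Om_bounded sc_apply sc_posSemidef sc_low)
open Vale.Agent.P088.H925.EC

variable {n : ℕ} {ρ : V n → ℝ}

/-- Concentration, weight `ρ ^ m`. -/
theorem concm (hCON : BX.RowCON) (hρ : Dom ρ) {τ₀ : V n → ℝ} (hτ₀ : SmP τ₀) {p : V n}
    (hp : ρ p = 0) {ν τ : V n} (h1 : ∑ i, ν i ^ 2 = 1) (h2 : ∑ i, τ i ^ 2 = 1)
    (h3 : ∑ i, ν i * τ i = 0) (hν : ∃ c > 0, ∀ i, pd i ρ p = c * ν i) (m : ℕ) :
    ∃ (U : ℕ → V n → ℂ) (Z : ℕ → ℝ), (∀ N, ContDiff ℝ ∞ (U N)) ∧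
      (∀ N, ∀ x ∈ Om ρ, dv (sc τ₀) (U N) x = 0) ∧ (∀ N, 0 < Z N) ∧
      ∀ F : V n → ℝ, Continuous F →
        Tendsto (fun N => (Z N)⁻¹ * eF ρ (fun x => ρ x ^ m * F x) (U N)) atTop (𝓝 (2 * F p)) := by
  obtain ⟨U, hU, hUh, hUZ⟩ := hCON ρ hρ τ₀ hτ₀ p hp ν τ h1 h2 h3 hν
  obtain ⟨Z, hZ, hlim⟩ := hUZ m
  refine ⟨U, Z, hU, hUh, hZ, fun F hF => ?_⟩
  set ζ : Fin n → ℂ := fun i => (ν i : ℂ) + Complex.I * τ i with hζ
  have hζc : ∀ j, (starRingEnd ℂ) (ζ j) = (ν j : ℂ) - Complex.I * τ j := fun j => by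
    simp only [hζ, map_add, map_mul, Complex.conj_ofReal, Complex.conj_I]
    ring
  have cU : ∀ N i, Continuous (pd i (U N)) := fun N => pd_cont (hU N)
  have cUc : ∀ N i, Continuous fun x => (starRingEnd ℂ) (pd i (U N) x) := fun N i =>
    Complex.continuous_conj.comp (cU N i)
  have cF : Continuous fun x => ((F x : ℝ) : ℂ) := Complex.continuous_ofReal.comp hF
  have R1 : Tendsto (fun N => (((Z N)⁻¹ * eF ρ (fun x => ρ x ^ m * F x) (U N) : ℝ) : ℂ)) atTop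
      (𝓝 (((2 * F p : ℝ)) : ℂ)) := by
    have h4 : Tendsto (fun N => ∑ j, ((Z N : ℝ) : ℂ)⁻¹ * ∫ x in Om ρ,
        ((ρ x ^ m : ℝ) : ℂ) * ((F x : ℝ) : ℂ) * pd j (U N) x *
          (starRingEnd ℂ) (pd j (U N) x)) atTop
        (𝓝 (∑ j, ((F p : ℝ) : ℂ) * ζ j * (starRingEnd ℂ) (ζ j))) :=
      tendsto_finsetSum _ fun j _ => hlim (fun x => ((F x : ℝ) : ℂ)) cF.continuousOn j j
    have h5 : ∑ j, ((F p : ℝ) : ℂ) * ζ j * (starRingEnd ℂ) (ζ j) = ((2 * F p : ℝ) : ℂ) := by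
      have h6 : ∀ j, ((F p : ℝ) : ℂ) * ζ j * (starRingEnd ℂ) (ζ j) =
          ((F p * (ν j ^ 2 + τ j ^ 2) : ℝ) : ℂ) := fun j => by
        rw [hζc]
        simp only [hζ]
        push_cast
        linear_combination (-((F p : ℂ) * (τ j : ℂ) ^ 2)) * Complex.I_sq
      rw [Finset.sum_congr rfl fun j _ => h6 j, ← Complex.ofReal_sum, ← Finset.mul_sum,
        Finset.sum_add_distrib, h1, h2]
      norm_num
      ring
    rw [h5] at h4
    refine h4.congr fun N => ?_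
    rw [← Finset.mul_sum]
    have i1 : ∀ j, IntegrableOn (fun x => ((ρ x ^ m : ℝ) : ℂ) * ((F x : ℝ) : ℂ) *
        pd j (U N) x * (starRingEnd ℂ) (pd j (U N) x)) (Om ρ) := fun j =>
      om_int hρ ((((Complex.continuous_ofReal.comp (hρ.sm.continuous.pow m)).mul cF).mul
        (cU N j)).mul (cUc N j))
    rw [← integral_finsetSum _ fun j _ => i1 j, Complex.ofReal_mul, Complex.ofReal_inv]
    congr 1
    unfold eF
    refine Eq.trans ?_ integral_ofReal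
    refine integral_congr_ae (Eventually.of_forall fun x => ?_)
    show _ = ((∑ j, ρ x ^ m * F x * ‖pd j (U N) x‖ ^ 2 : ℝ) : ℂ)
    push_cast
    refine Finset.sum_congr rfl fun j _ => ?_
    have h6 : ((‖pd j (U N) x‖ : ℝ) : ℂ) ^ 2 = pd j (U N) x * (starRingEnd ℂ) (pd j (U N) x) := by
      rw [Complex.mul_conj, Complex.normSq_eq_norm_sq]
      push_cast
      rfl
    rw [h6]
    ring
  have R2 := (Complex.continuous_re.tendsto _).comp R1
  simpa only [Function.comp_def, Complex.ofReal_re] using R2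

/-- The energy with weight `F` of a solution for `σ` increases from `σ` to `ψ`. -/
theorem iso_real (hρ : Dom ρ) {σ ψ : V n → ℝ} (hσ : SmP σ) (hψ : SmP ψ)
    (hSE : SE (Om ρ) (sc σ) (sc ψ)) {u : V n → ℝ} (hu : Sl (Om ρ) (sc σ) u) :
    rb (Om ρ) (sc σ) u u ≤ rb (Om ρ) (sc ψ) u u := by
  have h1 := en_sol hρ hσ hu
  have h2 := hSE u hu.1
  have h3 : En (Om ρ) (sc ψ) u ≤ rb (Om ρ) (sc ψ) u u :=
    csInf_le (En_bdd (sc_posSemidef fun x => (hψ.2 x).le) u) ⟨u, hu.1, fun _ _ => rfl, rfl⟩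
  linarith

theorem iso_side (hCON : BX.RowCON) (hn : 3 ≤ n) (hρ : Dom ρ) {σ ψ : V n → ℝ} (hσ : SmP σ)
    (hψ : SmP ψ) (hSE : SE (Om ρ) (sc σ) (sc ψ)) {m : ℕ} {h : V n → ℝ} (hh : ContDiff ℝ ∞ h)
    (he : ∀ x, ψ x - σ x = ρ x ^ m * h x) {p : V n} (hp : ρ p = 0) : 0 ≤ h p := by
  obtain ⟨ν, τ, h1, h2, h3, hν⟩ := frame hn hρ hp
  obtain ⟨U, Z, hU, hU0, hZ, hlim⟩ := concm hCON hρ hσ hp h1 h2 h3 hν m
  have l1 := hlim h hh.continuous
  have h4 : 0 ≤ 2 * h p := ge_of_tendsto' l1 fun M => by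
    obtain ⟨u1, u2⟩ := sl_parts hρ hσ (hU M) (hU0 M)
    have e1 := iso_real hρ hσ hψ hSE u1
    have e2 := iso_real hρ hσ hψ hSE u2
    have e3 : eF ρ (fun x => ρ x ^ m * h x) (U M) = eF ρ ψ (U M) - eF ρ σ (U M) := by
      have c1 : ∀ a, Continuous fun x => ‖pd a (U M) x‖ ^ 2 := fun a =>
        ((pd_cont (hU M) a).norm).pow 2
      have i1 : ∀ F : V n → ℝ, Continuous F →
          IntegrableOn (fun x => ∑ a, F x * ‖pd a (U M) x‖ ^ 2) (Om ρ) := fun F hF =>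
        om_int hρ (continuous_finsetSum _ fun a _ => hF.mul (c1 a))
      unfold eF
      rw [← integral_sub (i1 ψ hψ.1.continuous) (i1 σ hσ.1.continuous)]
      refine integral_congr_ae (Eventually.of_forall fun x => ?_)
      show ∑ a, ρ x ^ m * h x * ‖pd a (U M) x‖ ^ 2 = (∑ a, ψ x * ‖pd a (U M) x‖ ^ 2) -
        ∑ a, σ x * ‖pd a (U M) x‖ ^ 2
      rw [← Finset.sum_sub_distrib]
      refine Finset.sum_congr rfl fun a _ => ?_
      rw [← he x]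
      ring
    rw [e3, eF_eq hρ hψ.1 (hU M), eF_eq hρ hσ.1 (hU M)]
    exact mul_nonneg (inv_pos.2 (hZ M)).le (by linarith)
  linarith

/-- **Isotropic boundary determination.** -/
theorem isb (hCON : BX.RowCON) {n : ℕ} (hn : 3 ≤ n) (ρ : V n → ℝ) (hρ : Dom ρ)
    (σ ψ : V n → ℝ) (hσ : SmP σ) (hψ : SmP ψ) (hSE : SE (Om ρ) (sc σ) (sc ψ)) (m : ℕ) :
    ∃ h : V n → ℝ, ContDiff ℝ ∞ h ∧ ∀ x, ψ x - σ x = ρ x ^ m * h x := by
  induction m with
  | zero => exact ⟨fun x => ψ x - σ x, hψ.1.sub hσ.1, fun x => by rw [pow_zero, one_mul]⟩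
  | succ m ih =>
    obtain ⟨h, hh, he⟩ := ih
    have h0 : ∀ x, ρ x = 0 → h x = 0 := fun p hp => by
      have a1 := iso_side hCON hn hρ hσ hψ hSE hh he hp
      have a2 := iso_side hCON hn hρ hψ hσ (fun f hf => (hSE f hf).symm) (m := m)
        (h := fun x => -h x) hh.neg (fun x => by have := he x; linarith) hp
      linarith
    obtain ⟨g, hg, hgh⟩ := Vale.Agent.P088.LR.B.H641.rowHAD ρ hρ.sm hρ.nz h hh h0
    exact ⟨g, hg, fun x => by rw [he x, hgh x, pow_succ]; ring⟩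

/-- **Row E2_ISB.** -/
theorem rowISB (hCON : BX.RowCON) : E2.RowISB := fun hn ρ hρ σ ψ hσ hψ _ _ hSE m =>
  isb hCON hn ρ hρ σ ψ hσ hψ hSE m

end Vale.Agent.P088.LR.E.H641
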