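import Vale.Agent.P088.H198.Defs5
import Vale.Agent.P088.H639.Push
import Vale.Agent.P088.H109.BEnCore

/-!
# P088, stage J, row J_REC: equal reduced pairs after the push-forward

If the reduced pairs `(|E|² s, J)` of two line bundles agree after a push-forward, then the
pairs agree after the push-forward and a gauge transformation. The function `1/|E|` solves
`div (|E|² s ∇u) + q u = 0`, the small potential `q` is determined by the reduced pair; energy
estimate and Poincaré inequality.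
-/

open MeasureTheory Set
open scoped ContDiff Matrix

noncomputable section

namespace Vale.Agent.P088.LR.J.H641

open Vale.Agent.P088.LR Vale.Agent.P088.LR.J Vale.Agent.P088.H639

variable {n : ℕ}

/-! ### derivatives -/

theorem pdm_r {f g : V n → ℝ} {x : V n} (hf : DifferentiableAt ℝ f x)
    (hg : DifferentiableAt ℝ g x) (i : Fin n) :
    pd i (fun y => f y * g y) x = f x * pd i g x + g x * pd i f x := by
  have h1 := (hf.hasFDerivAt.mul hg.hasFDerivAt).fderiv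
  unfold pd
  have h2 := congrArg (fun L : V n →L[ℝ] ℝ => L (Pi.single i 1)) h1
  refine Eq.trans h2 ?_
  simp only [add_apply, smul_apply, smul_eq_mul]

theorem pdm_c {f g : V n → ℂ} {x : V n} (hf : DifferentiableAt ℝ f x)
    (hg : DifferentiableAt ℝ g x) (i : Fin n) :
    pd i (fun y => f y * g y) x = f x * pd i g x + g x * pd i f x := by
  have h1 := (hf.hasFDerivAt.mul hg.hasFDerivAt).fderiv
  unfold pd
  have h2 := congrArg (fun L : V n →L[ℝ] ℂ => L (Pi.single i 1)) h1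
  refine Eq.trans h2 ?_
  simp only [add_apply, smul_apply, smul_eq_mul]

theorem pdc {f : V n → ℂ} {x : V n} (hf : DifferentiableAt ℝ f x) (i : Fin n) :
    pd i (fun y => (starRingEnd ℂ) (f y)) x = (starRingEnd ℂ) (pd i f x) := by
  have h1 : HasFDerivAt (fun y => (starRingEnd ℂ) (f y))
      ((Complex.conjCLE : ℂ →L[ℝ] ℂ).comp (fderiv ℝ f x)) x :=
    (Complex.conjCLE.hasFDerivAt (x := f x)).comp x hf.hasFDerivAt
  unfold pd
  rw [h1.fderiv]
  rfl

theorem cd_pd {F : Type*} [NormedAddCommGroup F] [NormedSpace ℝ F] {f : V n → F}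
    (hf : ContDiff ℝ ∞ f) (i : Fin n) : ContDiff ℝ ∞ (pd i f) :=
  _root_.Vale.Agent.P088.LR.H158.contDiff_pd hf i

theorem dif {F : Type*} [NormedAddCommGroup F] [NormedSpace ℝ F] {f : V n → F}
    (hf : ContDiff ℝ ∞ f) : Differentiable ℝ f := hf.differentiable (by simp)

theorem pd_off {F : Type*} [NormedAddCommGroup F] [NormedSpace ℝ F] {Ω : Set (V n)}
    (hi : interior (closure Ω) = Ω) {f : V n → F} (hf : ContDiff ℝ ∞ f)
    (h0 : ∀ x ∉ Ω, f x = 0) {x : V n} (hx : x ∉ Ω) (i : Fin n) : pd i f x = 0 := by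
  have hcl : IsClosed {x : V n | pd i f x = 0} :=
    isClosed_eq (cd_pd hf i).continuous continuous_const
  have h1 : (closure Ω)ᶜ ⊆ {x : V n | pd i f x = 0} := by
    intro y hy
    have h2 : f =ᶠ[nhds y] fun _ => 0 := by
      filter_upwards [isClosed_closure.isOpen_compl.mem_nhds hy] with v hv
      exact h0 v fun h => hv (subset_closure h)
    show pd i f y = 0
    unfold pd
    rw [h2.fderiv_eq]
    simp
  have h2 : x ∈ closure ((closure Ω)ᶜ) := by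
    rw [closure_compl, hi]
    exact hx
  exact hcl.closure_subset_iff.2 h1 h2

/-! ### the functions `conj E (∂ + iα) E` and `1/|E|` -/

/-- `conj E (∂_j + iα_j) E`. -/
def pp (α : VF n) (E : V n → ℂ) (j : Fin n) (x : V n) : ℂ :=
  (starRingEnd ℂ) (E x) * cdm 1 α j E x

/-- The one-form `a_j = Im (conj E (∂_j + iα_j) E) / |E|²`. -/
def av (α : VF n) (E : V n → ℂ) (j : Fin n) (x : V n) : ℝ := ‖E x‖⁻¹ ^ 2 * (pp α E j x).im

/-- The potential. -/
def qd (s : MF n) (α : VF n) (E : V n → ℂ) (x : V n) : ℝ := ∑ i, rj s α E i x * av α E i x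

theorem cd_cdm (e : ℝ) {α : VF n} (hα : SmF α) {u : V n → ℂ} (hu : ContDiff ℝ ∞ u) (i : Fin n) :
    ContDiff ℝ ∞ (cdm e α i u) := by
  unfold cdm
  exact (cd_pd hu i).add ((contDiff_const.mul
    (Complex.ofRealCLM.contDiff.comp (contDiff_const.mul (hα i)))).mul hu)

theorem pp_re {α : VF n} {E : V n → ℂ} (hE : ContDiff ℝ ∞ E) (j : Fin n) (x : V n) :
    pd j (fun y => ‖E y‖ ^ 2) x = 2 * (pp α E j x).re := by
  have hr : ContDiff ℝ ∞ (fun y => ‖E y‖ ^ 2) := hE.norm_sq ℝ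
  have h1 := pd_oc hr j x
  have h2 : (oc fun y => ‖E y‖ ^ 2) = fun y => (starRingEnd ℂ) (E y) * E y := by
    funext y
    show ((‖E y‖ ^ 2 : ℝ) : ℂ) = _
    rw [Complex.conj_mul']
    push_cast
    rfl
  have hc : DifferentiableAt ℝ (fun y => (starRingEnd ℂ) (E y)) x :=
    (dif (Complex.conjCLE.contDiff.comp hE)) x
  rw [h2, pdm_c hc (dif hE x), pdc (dif hE x)] at h1
  have h3 := congrArg Complex.re h1
  rw [Complex.ofReal_re] at h3
  rw [← h3]
  unfold pp cdm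
  simp only [Complex.add_re, Complex.mul_re, Complex.conj_re, Complex.conj_im, Complex.mul_im,
    Complex.add_im, Complex.I_re, Complex.I_im, Complex.ofReal_re, Complex.ofReal_im]
  ring

theorem u_sq {E : V n → ℂ} (hne : ∀ x, E x ≠ 0) (x : V n) : ‖E x‖ ^ 2 * ‖E x‖⁻¹ ^ 2 = 1 := by
  have h := norm_ne_zero_iff.2 (hne x)
  field_simp

theorem cd_u {E : V n → ℂ} (hE : ContDiff ℝ ∞ E) (hne : ∀ x, E x ≠ 0) :
    ContDiff ℝ ∞ (fun y => ‖E y‖⁻¹) :=
  (hE.norm ℝ hne).inv fun y => norm_ne_zero_iff.2 (hne y)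

theorem pd_u {α : VF n} {E : V n → ℂ} (hE : ContDiff ℝ ∞ E) (hne : ∀ x, E x ≠ 0) (j : Fin n)
    (x : V n) : pd j (fun y => ‖E y‖⁻¹) x = -(‖E x‖⁻¹ ^ 3 * (pp α E j x).re) := by
  have hr : ContDiff ℝ ∞ (fun y => ‖E y‖ ^ 2) := hE.norm_sq ℝ
  have hu := cd_u hE hne
  have h1 : pd j (fun y => ‖E y‖ ^ 2 * (‖E y‖⁻¹ * ‖E y‖⁻¹)) x = 0 := by
    have e : (fun y => ‖E y‖ ^ 2 * (‖E y‖⁻¹ * ‖E y‖⁻¹)) = fun _ => (1 : ℝ) := by
      funext y
      rw [← sq]
      exact u_sq hne y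
    rw [e]
    unfold pd
    simp
  rw [pdm_r (dif hr x) (dif (hu.mul hu) x), pdm_r (dif hu x) (dif hu x),
    pp_re (α := α) hE] at h1
  have h2 := u_sq hne x
  set u := ‖E x‖⁻¹
  set r := ‖E x‖ ^ 2
  set d := pd j (fun y => ‖E y‖⁻¹) x
  set a := (pp α E j x).re
  have h3 : 2 * d * (r * u ^ 2) = -2 * u ^ 3 * a := by linear_combination u * h1
  rw [h2] at h3
  linarith

/-! ### integration by parts -/

theorem hcs {F : Type*} [NormedAddCommGroup F] {Ω : Set (V n)} (hb : Bornology.IsBounded Ω)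
    {f : V n → F} (h0 : ∀ x ∉ Ω, f x = 0) : HasCompactSupport f :=
  HasCompactSupport.intro hb.isCompact_closure fun x hx => h0 x fun h => hx (subset_closure h)

theorem wk {Ω : Set (V n)} (hi : interior (closure Ω) = Ω) (hb : Bornology.IsBounded Ω)
    {s : MF n} (hs : SmM s) {α : VF n} (hα : SmF α) {E ζ : V n → ℂ} (hE : ContDiff ℝ ∞ E)
    (hζ : ContDiff ℝ ∞ ζ) (h0 : ∀ x ∉ Ω, ζ x = 0) (hL : ∀ x ∈ Ω, la 1 s α E x = 0) :
    ∫ x in Ω, ∑ i, (∑ j, (s x i j : ℂ) * cdm 1 α j E x) * cdm (-1) α i ζ x = 0 := by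
  set F : Fin n → V n → ℂ := fun i y => ∑ j, (s y i j : ℂ) * cdm 1 α j E y with hF
  have hFs : ∀ i, ContDiff ℝ ∞ (F i) := fun i => ContDiff.sum fun j _ =>
    (Complex.ofRealCLM.contDiff.comp (hs i j)).mul (cd_cdm 1 hα hE j)
  have hc : HasCompactSupport ζ := hcs hb h0
  have e1 : ∀ x, ∑ i, F i x * cdm (-1) α i ζ x =
      ∑ i, (F i x * pd i ζ x + pd i (F i) x * ζ x) := by
    intro x
    have hz : la 1 s α E x * ζ x = 0 := by
      by_cases hx : x ∈ Ω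
      · rw [hL x hx, zero_mul]
      · rw [h0 x hx, mul_zero]
    have h1 : la 1 s α E x * ζ x = ∑ i, cdm 1 α i (F i) x * ζ x := by
      unfold la
      rw [Finset.sum_mul]
    rw [hz] at h1
    have h2 : ∑ i, (F i x * pd i ζ x + pd i (F i) x * ζ x) =
        ∑ i, F i x * cdm (-1) α i ζ x + ∑ i, cdm 1 α i (F i) x * ζ x := by
      rw [← Finset.sum_add_distrib]
      refine Finset.sum_congr rfl fun i _ => ?_
      unfold cdm
      push_cast
      ring
    rw [h2, ← h1, add_zero]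
  have e2 : ∫ x in Ω, ∑ i, F i x * cdm (-1) α i ζ x = ∫ x, ∑ i, F i x * cdm (-1) α i ζ x := by
    refine setIntegral_eq_integral_of_forall_compl_eq_zero fun x hx => ?_
    refine Finset.sum_eq_zero fun i _ => ?_
    unfold cdm
    rw [pd_off hi hζ h0 hx, h0 x hx]
    simp
  show ∫ x in Ω, ∑ i, F i x * cdm (-1) α i ζ x = 0
  rw [e2]
  simp only [e1]
  have hcp : ∀ i, HasCompactSupport (pd i ζ) := fun i => hc.fderiv_apply ℝ (Pi.single i 1)
  have i1 : ∀ i, Integrable (fun x => pd i (F i) x * ζ x) := fun i =>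
    ((cd_pd (hFs i) i).continuous.mul hζ.continuous).integrable_of_hasCompactSupport hc.mul_left
  have i2 : ∀ i, Integrable (fun x => F i x * pd i ζ x) := fun i =>
    ((hFs i).continuous.mul (cd_pd hζ i).continuous).integrable_of_hasCompactSupport
      (hcp i).mul_left
  have i3 : ∀ i, Integrable (fun x => F i x * ζ x) := fun i =>
    ((hFs i).continuous.mul hζ.continuous).integrable_of_hasCompactSupport hc.mul_left
  have i4 : ∀ i, Integrable (fun x => F i x * pd i ζ x + pd i (F i) x * ζ x) := fun i =>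
    (i2 i).add (i1 i)
  rw [integral_finsetSum _ fun i _ => i4 i]
  refine Finset.sum_eq_zero fun i _ => ?_
  rw [integral_add (i2 i) (i1 i)]
  have h := integral_mul_fderiv_eq_neg_fderiv_mul_of_integrable (μ := (volume : Measure (V n)))
    (f := F i) (g := ζ) (v := Pi.single i 1) (i1 i) (i2 i) (i3 i)
    (fun x _ => dif (hFs i) x) (fun x _ => dif hζ x)
  have h' : ∫ x, F i x * pd i ζ x = -∫ x, pd i (F i) x * ζ x := h
  rw [h', neg_add_cancel]

/-! ### the weak equation for `1/|E|` -/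

theorem intOn {F : Type*} [NormedAddCommGroup F] {Ω : Set (V n)} (hb : Bornology.IsBounded Ω)
    {f : V n → F} (hf : Continuous f) : IntegrableOn f Ω :=
  (hf.continuousOn.integrableOn_compact hb.isCompact_closure).mono_set subset_closure

theorem cd_pp {α : VF n} (hα : SmF α) {E : V n → ℂ} (hE : ContDiff ℝ ∞ E) (j : Fin n) :
    ContDiff ℝ ∞ (pp α E j) :=
  (Complex.conjCLE.contDiff.comp hE).mul (cd_cdm 1 hα hE j)

theorem cd_im {f : V n → ℂ} (hf : ContDiff ℝ ∞ f) : ContDiff ℝ ∞ fun x => (f x).im :=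
  Complex.imCLM.contDiff.comp hf

theorem cd_av {α : VF n} (hα : SmF α) {E : V n → ℂ} (hE : ContDiff ℝ ∞ E)
    (hne : ∀ x, E x ≠ 0) (j : Fin n) : ContDiff ℝ ∞ (av α E j) :=
  ((cd_u hE hne).pow 2).mul (cd_im (cd_pp hα hE j))

theorem cd_rj {s : MF n} (hs : SmM s) {α : VF n} (hα : SmF α) {E : V n → ℂ}
    (hE : ContDiff ℝ ∞ E) (i : Fin n) : ContDiff ℝ ∞ (rj s α E i) :=
  ContDiff.sum fun j _ => (hs i j).mul (cd_im (cd_pp hα hE j))

theorem cd_qd {s : MF n} (hs : SmM s) {α : VF n} (hα : SmF α) {E : V n → ℂ}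
    (hE : ContDiff ℝ ∞ E) (hne : ∀ x, E x ≠ 0) : ContDiff ℝ ∞ (qd s α E) :=
  ContDiff.sum fun i _ => (cd_rj hs hα hE i).mul (cd_av hα hE hne i)

theorem cd_rs {s : MF n} (hs : SmM s) {E : V n → ℂ} (hE : ContDiff ℝ ∞ E) : SmM (rs s E) := by
  intro i j
  unfold rs
  simp only [Matrix.smul_apply, smul_eq_mul]
  exact (hE.norm_sq ℝ).mul (hs i j)

/-- pointwise identity -/
theorem ptw {α : VF n} {E : V n → ℂ} (hE : ContDiff ℝ ∞ E) (hne : ∀ x, E x ≠ 0)
    {φ : V n → ℝ} (hφ : ContDiff ℝ ∞ φ) (i j : Fin n) (x : V n) :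
    (cdm 1 α j E x * cdm (-1) α i
      (fun y => (starRingEnd ℂ) (E y) * oc (fun y => φ y * ‖E y‖⁻¹) y) x).re =
      ‖E x‖⁻¹ ^ 3 * φ x * ((pp α E i x).im * (pp α E j x).im) +
        ‖E x‖⁻¹ * (pp α E j x).re * pd i φ x := by
  have hu := cd_u hE hne
  have hχ : ContDiff ℝ ∞ (fun y => φ y * ‖E y‖⁻¹) := hφ.mul hu
  have hc : ContDiff ℝ ∞ (fun y => (starRingEnd ℂ) (E y)) := Complex.conjCLE.contDiff.comp hE
  have e1 : cdm (-1) α i (fun y => (starRingEnd ℂ) (E y) * oc (fun y => φ y * ‖E y‖⁻¹) y) x =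
      ((φ x * ‖E x‖⁻¹ : ℝ) : ℂ) * (starRingEnd ℂ) (cdm 1 α i E x) +
        (starRingEnd ℂ) (E x) * ((pd i (fun y => φ y * ‖E y‖⁻¹) x : ℝ) : ℂ) := by
    unfold cdm
    rw [pdm_c (dif hc x) (dif (oc_contDiff hχ) x), pdc (dif hE x), pd_oc hχ]
    simp only [map_add, map_mul, Complex.conj_I, Complex.conj_ofReal]
    push_cast
    ring
  have e2 : pd i (fun y => φ y * ‖E y‖⁻¹) x =
      -(φ x * (‖E x‖⁻¹ ^ 3 * (pp α E i x).re)) + ‖E x‖⁻¹ * pd i φ x := by
    rw [pdm_r (dif hφ x) (dif hu x), pd_u (α := α) hE hne]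
    ring
  have e3 : cdm 1 α j E x * (starRingEnd ℂ) (cdm 1 α i E x) =
      ((‖E x‖⁻¹ ^ 2 : ℝ) : ℂ) * (pp α E j x * (starRingEnd ℂ) (pp α E i x)) := by
    have h1 : ((‖E x‖⁻¹ ^ 2 : ℝ) : ℂ) * ((starRingEnd ℂ) (E x) * E x) = 1 := by
      rw [Complex.conj_mul', ← Complex.ofReal_pow, ← Complex.ofReal_mul, mul_comm, u_sq hne x,
        Complex.ofReal_one]
    unfold pp
    simp only [map_mul, Complex.conj_conj]
    linear_combination (-(cdm 1 α j E x * (starRingEnd ℂ) (cdm 1 α i E x))) * h1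
  have e4 : cdm 1 α j E x * cdm (-1) α i
      (fun y => (starRingEnd ℂ) (E y) * oc (fun y => φ y * ‖E y‖⁻¹) y) x =
      ((φ x * ‖E x‖⁻¹ * ‖E x‖⁻¹ ^ 2 : ℝ) : ℂ) * (pp α E j x * (starRingEnd ℂ) (pp α E i x)) +
        pp α E j x * ((pd i (fun y => φ y * ‖E y‖⁻¹) x : ℝ) : ℂ) := by
    rw [e1, mul_add]
    have h1 : cdm 1 α j E x * (((φ x * ‖E x‖⁻¹ : ℝ) : ℂ) * (starRingEnd ℂ) (cdm 1 α i E x)) =
        ((φ x * ‖E x‖⁻¹ : ℝ) : ℂ) * (cdm 1 α j E x * (starRingEnd ℂ) (cdm 1 α i E x)) := by ring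
    rw [h1, e3]
    unfold pp
    push_cast
    ring
  rw [e4, e2]
  simp only [Complex.add_re, Complex.mul_re, Complex.conj_re, Complex.conj_im, Complex.mul_im,
    Complex.ofReal_re, Complex.ofReal_im]
  ring

/-- **the weak equation for `1/|E|`** -/
theorem wku {Ω : Set (V n)} (hi : interior (closure Ω) = Ω)
    (hb : Bornology.IsBounded Ω) {s : MF n} (hs : SmM s) (hsym : ∀ x, (s x).IsSymm) {α : VF n}
    (hα : SmF α) {E : V n → ℂ} (hE : ContDiff ℝ ∞ E) (hne : ∀ x, E x ≠ 0)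
    (hL : ∀ x ∈ Ω, la 1 s α E x = 0) {φ : V n → ℝ} (hφ : ContDiff ℝ ∞ φ)
    (h0 : ∀ x ∉ Ω, φ x = 0) :
    rb Ω (rs s E) (fun y => ‖E y‖⁻¹) φ = ∫ x in Ω, qd s α E x * ‖E x‖⁻¹ * φ x := by
  set ζ : V n → ℂ := fun y => (starRingEnd ℂ) (E y) * oc (fun y => φ y * ‖E y‖⁻¹) y with hζd
  have hu := cd_u hE hne
  have hχ : ContDiff ℝ ∞ (fun y => φ y * ‖E y‖⁻¹) := hφ.mul hu
  have hζ : ContDiff ℝ ∞ ζ := (Complex.conjCLE.contDiff.comp hE).mul (oc_contDiff hχ)
  have hζ0 : ∀ x ∉ Ω, ζ x = 0 := by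
    intro x hx
    rw [hζd]
    simp [h0 x hx]
  have h1 := wk hi hb hs hα hE hζ hζ0 hL
  have hint : IntegrableOn (fun x => ∑ i, (∑ j, (s x i j : ℂ) * cdm 1 α j E x) *
      cdm (-1) α i ζ x) Ω := by
    refine intOn hb (continuous_finsetSum _ fun i _ => Continuous.mul
      (continuous_finsetSum _ fun j _ => ?_) (cd_cdm (-1) hα hζ i).continuous)
    exact (Complex.continuous_ofReal.comp (hs i j).continuous).mul (cd_cdm 1 hα hE j).continuous
  have h2 : ∫ x in Ω, (∑ i, (∑ j, (s x i j : ℂ) * cdm 1 α j E x) * cdm (-1) α i ζ x).re = 0 := by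
    have h3 := Complex.reCLM.integral_comp_comm hint
    rw [h1, map_zero] at h3
    exact h3
  have hpt : ∀ x, (∑ i, (∑ j, (s x i j : ℂ) * cdm 1 α j E x) * cdm (-1) α i ζ x).re =
      qd s α E x * ‖E x‖⁻¹ * φ x -
        ∑ i, ∑ j, rs s E x i j * pd i (fun y => ‖E y‖⁻¹) x * pd j φ x := by
    intro x
    have e1 : (∑ i, (∑ j, (s x i j : ℂ) * cdm 1 α j E x) * cdm (-1) α i ζ x).re =
        ∑ i, ∑ j, s x i j * (‖E x‖⁻¹ ^ 3 * φ x * ((pp α E i x).im * (pp α E j x).im) +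
        ‖E x‖⁻¹ * (pp α E j x).re * pd i φ x) := by
      rw [Complex.re_sum]
      refine Finset.sum_congr rfl fun i _ => ?_
      rw [Finset.sum_mul, Complex.re_sum]
      refine Finset.sum_congr rfl fun j _ => ?_
      rw [mul_assoc, Complex.re_ofReal_mul, hζd, ptw hE hne hφ i j x]
    have e2 : qd s α E x * ‖E x‖⁻¹ * φ x =
        ∑ i, ∑ j, s x i j * (‖E x‖⁻¹ ^ 3 * φ x * ((pp α E i x).im * (pp α E j x).im)) := by
      unfold qd
      rw [Finset.sum_mul, Finset.sum_mul]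
      refine Finset.sum_congr rfl fun i _ => ?_
      unfold rj av
      rw [Finset.sum_mul, Finset.sum_mul, Finset.sum_mul]
      refine Finset.sum_congr rfl fun j _ => ?_
      unfold pp
      ring
    have e3 : ∑ i, ∑ j, rs s E x i j * pd i (fun y => ‖E y‖⁻¹) x * pd j φ x =
        -∑ i, ∑ j, s x i j * (‖E x‖⁻¹ * (pp α E j x).re * pd i φ x) := by
      rw [Finset.sum_comm, ← Finset.sum_neg_distrib]
      refine Finset.sum_congr rfl fun i _ => ?_
      rw [← Finset.sum_neg_distrib]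
      refine Finset.sum_congr rfl fun j _ => ?_
      rw [pd_u (α := α) hE hne, (show rs s E x j i = ‖E x‖ ^ 2 * s x j i from rfl),
        (hsym x).apply i j]
      have h := u_sq hne x
      linear_combination (-(s x i j * ‖E x‖⁻¹ * (pp α E j x).re * pd i φ x)) * h
    rw [e1, e2, e3, sub_neg_eq_add, ← Finset.sum_add_distrib]
    refine Finset.sum_congr rfl fun i _ => ?_
    rw [← Finset.sum_add_distrib]
    refine Finset.sum_congr rfl fun j _ => ?_
    ring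
  simp only [hpt] at h2
  have j1 : IntegrableOn (fun x => qd s α E x * ‖E x‖⁻¹ * φ x) Ω :=
    intOn hb (((cd_qd hs hα hE hne).continuous.mul hu.continuous).mul hφ.continuous)
  rw [integral_sub j1 (rb_integrable hb (fun i j => (cd_rs hs hE i j).continuous) hu hφ)] at h2
  unfold rb
  linarith

/-! ### the push-forward -/

theorem rj_eq (s : MF n) (α : VF n) {E : V n → ℂ} (hne : ∀ x, E x ≠ 0) (x : V n) (i : Fin n) :
    rj s α E i x = (rs s E x *ᵥ fun j => av α E j x) i := by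
  unfold rj rs av
  simp only [Matrix.mulVec, dotProduct, Matrix.smul_apply, smul_eq_mul]
  refine Finset.sum_congr rfl fun j _ => ?_
  have h := u_sq hne x
  show s x i j * (pp α E j x).im = _
  linear_combination (-(s x i j * (pp α E j x).im)) * h

section push

variable {Ω : Set (V n)} {w K : V n → V n} (D : Dif Ω w K)

include D

/-- change of variables -/
theorem cov (hO : IsOpen Ω) (g : V n → ℝ) :
    ∫ x in Ω, g x = ∫ y in Ω, (jm w (K y)).det⁻¹ * g (K y) := by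
  have h1 := integral_image_eq_integral_abs_det_fderiv_smul (volume : Measure (V n))
    hO.measurableSet (f := fun x => x + w x)
    (f' := fun x => ContinuousLinearMap.id ℝ (V n) + fderiv ℝ w x)
    (fun x _ => (LR.H158.hasFDerivAt_H D.sw x).hasFDerivWithinAt) ((LR.H158.H_inj D).injOn)
    (fun y => (jm w (K y)).det⁻¹ * g (K y))
  rw [LR.H158.H_image D] at h1
  rw [h1]
  refine setIntegral_congr_fun hO.measurableSet fun x _ => ?_
  show g x = |(ContinuousLinearMap.id ℝ (V n) + fderiv ℝ w x).det| •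
    ((jm w (K (x + w x))).det⁻¹ * g (K (x + w x)))
  rw [LR.H158.det_H, abs_of_pos (D.dp x), D.l, smul_eq_mul]
  have := (D.dp x).ne'
  field_simp

variable {s₁ s₂ : MF n} {α₁ α₂ : VF n} {E₁ E₂ : V n → ℂ} (hn₁ : ∀ x, E₁ x ≠ 0)
  (hn₂ : ∀ x, E₂ x ≠ 0) (hp₂ : ∀ x, (s₂ x).PosDef)
  (h1 : ∀ x, psh (rs s₂ E₂) w K x = rs s₁ E₁ x)
  (h2 : ∀ i x, pvf (rj s₂ α₂ E₂) w K i x = rj s₁ α₁ E₁ i x)

include hn₁ hn₂ hp₂ h1 h2

/-- the one-forms `a` correspond -/
theorem av_push (x : V n) (i : Fin n) :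
    av α₂ E₂ i x = ∑ j, jm w x j i * av α₁ E₁ j (x + w x) := by
  set A := jm w x with hA
  set S := rs s₂ E₂ x with hS'
  set a₁ : Fin n → ℝ := fun j => av α₁ E₁ j (x + w x) with ha₁
  set a₂ : Fin n → ℝ := fun j => av α₂ E₂ j x with ha₂
  have hd : A.det ≠ 0 := (D.dp x).ne'
  have hS : S.det ≠ 0 := by
    have h0 : 0 < ‖E₂ x‖ ^ 2 := by
      have := norm_pos_iff.2 (hn₂ x)
      positivity
    have h3 : S.PosDef := (hp₂ x).smul h0
    exact h3.det_pos.ne'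
  have g1 : A.det⁻¹ • (A * S * Aᵀ) = rs s₁ E₁ (x + w x) := by
    rw [← h1 (x + w x)]
    unfold psh
    rw [D.l]
  have e1 : (A * S) *ᵥ (a₂ - Aᵀ *ᵥ a₁) = 0 := by
    funext k
    have g2 := h2 k (x + w x)
    have g3 : pvf (rj s₂ α₂ E₂) w K k (x + w x) = A.det⁻¹ * (A *ᵥ (S *ᵥ a₂)) k := by
      unfold pvf
      rw [D.l]
      simp only [Matrix.mulVec, dotProduct]
      congr 1
      refine Finset.sum_congr rfl fun j _ => ?_
      rw [rj_eq s₂ α₂ hn₂ x j]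
      rfl
    rw [g3, rj_eq s₁ α₁ hn₁ (x + w x) k, ← g1, Matrix.smul_mulVec] at g2
    have g4 : (A *ᵥ (S *ᵥ a₂)) k = ((A * S * Aᵀ) *ᵥ a₁) k := by
      have g5 : A.det⁻¹ * (A *ᵥ (S *ᵥ a₂)) k = A.det⁻¹ * ((A * S * Aᵀ) *ᵥ a₁) k := g2
      exact mul_left_cancel₀ (inv_ne_zero hd) g5
    rw [Matrix.mulVec_sub, Matrix.mulVec_mulVec, ← Matrix.mulVec_mulVec, Pi.sub_apply, g4,
      Pi.zero_apply, sub_self]
  have e2 : a₂ - Aᵀ *ᵥ a₁ = 0 := by
    refine Matrix.eq_zero_of_mulVec_eq_zero ?_ e1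
    rw [Matrix.det_mul]
    exact mul_ne_zero hd hS
  have e3 := congrFun e2 i
  rw [Pi.sub_apply, Pi.zero_apply, sub_eq_zero] at e3
  show a₂ i = _
  rw [e3]
  rfl

/-- the potential is a density -/
theorem qd_push (x : V n) :
    qd s₁ α₁ E₁ (x + w x) = (jm w x).det⁻¹ * qd s₂ α₂ E₂ x := by
  have g : ∀ i, rj s₁ α₁ E₁ i (x + w x) =
      (jm w x).det⁻¹ * ∑ j, jm w x i j * rj s₂ α₂ E₂ j x := by
    intro i
    rw [← h2 i]
    unfold pvf
    rw [D.l]
  unfold qd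
  simp only [g, av_push D hn₁ hn₂ hp₂ h1 h2 x]
  simp only [Finset.mul_sum, Finset.sum_mul]
  rw [Finset.sum_comm]
  refine Finset.sum_congr rfl fun i _ => Finset.sum_congr rfl fun j _ => ?_
  ring

end push

/-! ### Poincaré inequality and energy -/

theorem pd_co (k : Fin n) (x : V n) : pd k (fun y : V n => y k) x = 1 := by
  have h1 : HasFDerivAt (fun y : V n => y k) (ContinuousLinearMap.proj (R := ℝ) k) x :=
    (ContinuousLinearMap.proj (R := ℝ) (φ := fun _ : Fin n => ℝ) k).hasFDerivAt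
  unfold pd
  rw [h1.fderiv]
  simp

/-- Poincaré inequality -/
theorem poin (hn : 0 < n) {Ω : Set (V n)} (hO : IsOpen Ω) (hb : Bornology.IsBounded Ω)
    (hΩ : Ω ⊆ core n) {f : V n → ℝ} (hf : ContDiff ℝ ∞ f) (h0 : ∀ x ∉ Ω, f x = 0) :
    ∫ x in Ω, f x ^ 2 ≤ 4 * ∫ x in Ω, ∑ i, pd i f x ^ 2 := by
  set k : Fin n := ⟨0, hn⟩ with hk
  set c : V n → ℝ := fun y => y k with hc
  set g : V n → ℝ := fun y => f y * f y with hg
  have hcs' : ContDiff ℝ ∞ c := contDiff_apply ℝ ℝ k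
  have hgs : ContDiff ℝ ∞ g := hf.mul hf
  have hg0 : ∀ x ∉ Ω, g x = 0 := fun x hx => by rw [hg]; simp [h0 x hx]
  have hcg : HasCompactSupport g := hcs hb hg0
  have hcg' : HasCompactSupport (pd k g) := hcg.fderiv_apply ℝ (Pi.single k 1)
  have i1 : Integrable (fun x => pd k c x * g x) :=
    ((cd_pd hcs' k).continuous.mul hgs.continuous).integrable_of_hasCompactSupport hcg.mul_left
  have i2 : Integrable (fun x => c x * pd k g x) :=
    (hcs'.continuous.mul (cd_pd hgs k).continuous).integrable_of_hasCompactSupport hcg'.mul_left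
  have i3 : Integrable (fun x => c x * g x) :=
    (hcs'.continuous.mul hgs.continuous).integrable_of_hasCompactSupport hcg.mul_left
  have h := integral_mul_fderiv_eq_neg_fderiv_mul_of_integrable (μ := (volume : Measure (V n)))
    (f := c) (g := g) (v := Pi.single k 1) i1 i2 i3
    (fun x _ => dif hcs' x) (fun x _ => dif hgs x)
  have h' : ∫ x, c x * pd k g x = -∫ x, pd k c x * g x := h
  have e1 : ∀ x, pd k g x = 2 * f x * pd k f x := by
    intro x
    rw [hg, pdm_r (dif hf x) (dif hf x)]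
    ring
  have e2 : ∀ x, pd k c x * g x = f x ^ 2 := by
    intro x
    rw [hc, pd_co, hg]
    ring
  simp only [e1, e2] at h'
  have e3 : ∫ x in Ω, f x ^ 2 = ∫ x, f x ^ 2 :=
    setIntegral_eq_integral_of_forall_compl_eq_zero fun x hx => by rw [h0 x hx]; simp
  have e4 : ∫ x in Ω, c x * (2 * f x * pd k f x) = ∫ x, c x * (2 * f x * pd k f x) :=
    setIntegral_eq_integral_of_forall_compl_eq_zero fun x hx => by rw [h0 x hx]; simp
  have hpc : ∀ i, Continuous (pd i f) := fun i => (cd_pd hf i).continuous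
  have j1 : IntegrableOn (fun x => -(c x * (2 * f x * pd k f x))) Ω :=
    intOn hb (hcs'.continuous.mul ((continuous_const.mul hf.continuous).mul (hpc k))).neg
  have j2 : IntegrableOn (fun x => 1 / 2 * f x ^ 2) Ω :=
    intOn hb (continuous_const.mul (hf.continuous.pow 2))
  have j3 : IntegrableOn (fun x => 2 * ∑ i, pd i f x ^ 2) Ω :=
    intOn hb (continuous_const.mul (continuous_finsetSum _ fun i _ => (hpc i).pow 2))
  have e5 : ∫ x in Ω, -(c x * (2 * f x * pd k f x)) ≤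
      ∫ x in Ω, (1 / 2 * f x ^ 2 + 2 * ∑ i, pd i f x ^ 2) := by
    refine setIntegral_mono_on j1 (j2.add j3) hO.measurableSet fun x hx => ?_
    have hx1 := hΩ hx k
    have hx2 : c x ^ 2 ≤ 1 := by
      show x k ^ 2 ≤ 1
      nlinarith [hx1.1, hx1.2]
    have hx3 : pd k f x ^ 2 ≤ ∑ i, pd i f x ^ 2 :=
      Finset.single_le_sum (f := fun i => pd i f x ^ 2) (fun i _ => sq_nonneg _)
        (Finset.mem_univ k)
    have hx4 : c x ^ 2 * pd k f x ^ 2 ≤ pd k f x ^ 2 := by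
      nlinarith [sq_nonneg (pd k f x)]
    nlinarith [sq_nonneg (f x + 2 * c x * pd k f x)]
  rw [integral_add j2 j3, integral_neg, e4, h', ← e3, integral_const_mul,
    integral_const_mul] at e5
  linarith

/-- uniqueness for the small potential -/
theorem f_zero (hn : 0 < n) {Ω : Set (V n)} (hO : IsOpen Ω) (hb : Bornology.IsBounded Ω)
    (hΩ : Ω ⊆ core n) {s : MF n} (hs : SmM s) {q : V n → ℝ} (hq : Continuous q)
    (hsm : ∀ x ∈ Ω, ∀ i j, |s x i j - (1 : Matrix (Fin n) (Fin n) ℝ) i j| ≤ 1 / (2 * (n + 1)))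
    (hqb : ∀ x ∈ Ω, q x ≤ 1 / 16) {f : V n → ℝ} (hf : ContDiff ℝ ∞ f)
    (h0 : ∀ x ∉ Ω, f x = 0) (he : rb Ω s f f = ∫ x in Ω, q x * f x * f x) (x : V n) :
    f x = 0 := by
  have hpc : ∀ i, Continuous (pd i f) := fun i => (cd_pd hf i).continuous
  have jG : IntegrableOn (fun x => 1 / 2 * ∑ i, pd i f x ^ 2) Ω :=
    intOn hb (continuous_const.mul (continuous_finsetSum _ fun i _ => (hpc i).pow 2))
  have j1 := rb_integrable hb (fun i j => (hs i j).continuous) hf hf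
  have k1 : ∫ x in Ω, 1 / 2 * ∑ i, pd i f x ^ 2 ≤ rb Ω s f f := by
    unfold rb
    refine setIntegral_mono_on jG j1 hO.measurableSet fun x hx => ?_
    exact H109.pt_low (s x) (hsm x hx) fun i => pd i f x
  have j2 : IntegrableOn (fun x => q x * f x * f x) Ω :=
    intOn hb ((hq.mul hf.continuous).mul hf.continuous)
  have j3 : IntegrableOn (fun x => 1 / 16 * f x ^ 2) Ω :=
    intOn hb (continuous_const.mul (hf.continuous.pow 2))
  have k2 : ∫ x in Ω, q x * f x * f x ≤ ∫ x in Ω, 1 / 16 * f x ^ 2 := by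
    refine setIntegral_mono_on j2 j3 hO.measurableSet fun x hx => ?_
    nlinarith [hqb x hx, sq_nonneg (f x)]
  rw [integral_const_mul] at k1 k2
  have k3 := poin hn hO hb hΩ hf h0
  have e3 : ∫ x in Ω, f x ^ 2 = ∫ x, f x ^ 2 :=
    setIntegral_eq_integral_of_forall_compl_eq_zero fun x hx => by rw [h0 x hx]; simp
  have k4 : 0 ≤ ∫ x in Ω, f x ^ 2 := integral_nonneg fun x => sq_nonneg _
  have k5 : ∫ x, f x ^ 2 = 0 := by
    rw [← e3]
    linarith
  have hsq : ContDiff ℝ ∞ fun x => f x ^ 2 := hf.pow 2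
  have hsq0 : ∀ x ∉ Ω, f x ^ 2 = 0 := fun x hx => by rw [h0 x hx]; simp
  have hcsq : HasCompactSupport fun x => f x ^ 2 := hcs hb hsq0
  have hint : Integrable fun x => f x ^ 2 :=
    hsq.continuous.integrable_of_hasCompactSupport hcsq
  have hnn : 0 ≤ fun x => f x ^ 2 := fun x => sq_nonneg (f x)
  have k6 := (integral_eq_zero_iff_of_nonneg hnn hint).1 k5
  have k7 : (fun x => f x ^ 2) = fun _ => (0 : ℝ) :=
    (hsq.continuous.ae_eq_iff_eq (volume : Measure (V n)) continuous_const).1 k6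
  have k8 : f x ^ 2 = 0 := congrFun k7 x
  exact (pow_eq_zero_iff two_ne_zero).1 k8

/-- the potential is small -/
theorem qd_bd {ε : ℝ} (hε : ε = 1 / (8 * ((n : ℝ) + 1))) {s : MF n} {α : VF n} {E : V n → ℂ}
    (hne : ∀ x, E x ≠ 0) (x : V n)
    (h1 : ∀ i j, |rs s E x i j - (1 : Matrix (Fin n) (Fin n) ℝ) i j| ≤ ε)
    (h2 : ∀ i, |rj s α E i x| ≤ ε) : qd s α E x ≤ 1 / 16 := by
  have hε0 : 0 < ε := by rw [hε]; positivity
  have hnε : (n : ℝ) * ε ≤ 1 / 8 := by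
    rw [hε]
    rw [mul_one_div, div_le_div_iff₀ (by positivity) (by norm_num)]
    nlinarith
  have hε1 : ε ≤ 1 / 8 := by
    rw [hε]
    rw [div_le_div_iff₀ (by positivity) (by norm_num)]
    have : (0 : ℝ) ≤ n := Nat.cast_nonneg n
    linarith
  set S := ∑ i, |av α E i x| with hS
  have hS0 : 0 ≤ S := Finset.sum_nonneg fun i _ => abs_nonneg _
  have e1 : ∀ i, |av α E i x| ≤ ε + ε * S := by
    intro i
    have g1 : av α E i x = rj s α E i x -
        ∑ j, (rs s E x i j - (1 : Matrix (Fin n) (Fin n) ℝ) i j) * av α E j x := by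
      rw [rj_eq s α hne x i]
      simp only [Matrix.mulVec, dotProduct, sub_mul, Finset.sum_sub_distrib]
      have g2 : ∑ j, (1 : Matrix (Fin n) (Fin n) ℝ) i j * av α E j x = av α E i x := by
        rw [Finset.sum_eq_single i]
        · simp
        · intro b _ hb
          simp [Ne.symm hb]
        · intro h
          exact absurd (Finset.mem_univ i) h
      rw [g2]
      ring
    rw [g1]
    refine (abs_sub _ _).trans (add_le_add (h2 i) ?_)
    refine (Finset.abs_sum_le_sum_abs _ _).trans ?_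
    rw [hS, Finset.mul_sum]
    refine Finset.sum_le_sum fun j _ => ?_
    rw [abs_mul]
    exact mul_le_mul_of_nonneg_right (h1 i j) (abs_nonneg _)
  have e2 : S ≤ n * (ε + ε * S) := by
    refine (Finset.sum_le_sum fun i _ => e1 i).trans ?_
    rw [Finset.sum_const, Finset.card_univ, Fintype.card_fin, nsmul_eq_mul]
  have e3 : S ≤ 1 / 7 := by nlinarith
  have e4 : qd s α E x ≤ ε * S := by
    unfold qd
    rw [hS, Finset.mul_sum]
    refine Finset.sum_le_sum fun i _ => ?_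
    refine (le_abs_self _).trans ?_
    rw [abs_mul]
    exact mul_le_mul_of_nonneg_right (h2 i) (abs_nonneg _)
  nlinarith

/-! ### the moduli agree -/

theorem mod_eq (hn : 0 < n) {Ω : Set (V n)} (hO : IsOpen Ω) (hi : interior (closure Ω) = Ω)
    (hb : Bornology.IsBounded Ω) (hΩ : Ω ⊆ core n) {w K : V n → V n} (D : Dif Ω w K)
    {s₁ s₂ : MF n} (hs₁ : SmM s₁) (hs₂ : SmM s₂) (hp₁ : ∀ x, (s₁ x).PosDef)
    (hp₂ : ∀ x, (s₂ x).PosDef) {α₁ α₂ : VF n} (hα₁ : SmF α₁) (hα₂ : SmF α₂) {E₁ E₂ : V n → ℂ}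
    (hE₁ : ContDiff ℝ ∞ E₁) (hE₂ : ContDiff ℝ ∞ E₂) (hn₁ : ∀ x, E₁ x ≠ 0)
    (hn₂ : ∀ x, E₂ x ≠ 0) (hE : ∀ x ∉ Ω, E₂ x = E₁ x)
    (hL₁ : ∀ x ∈ Ω, la 1 s₁ α₁ E₁ x = 0) (hL₂ : ∀ x ∈ Ω, la 1 s₂ α₂ E₂ x = 0)
    {ε : ℝ} (hε : ε = 1 / (8 * ((n : ℝ) + 1)))
    (b1 : ∀ x ∈ Ω, ∀ i j, |rs s₁ E₁ x i j - (1 : Matrix (Fin n) (Fin n) ℝ) i j| ≤ ε)
    (b2 : ∀ x ∈ Ω, ∀ i, |rj s₁ α₁ E₁ i x| ≤ ε)
    (h1 : ∀ x, psh (rs s₂ E₂) w K x = rs s₁ E₁ x)
    (h2 : ∀ i x, pvf (rj s₂ α₂ E₂) w K i x = rj s₁ α₁ E₁ i x) (y : V n) :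
    ‖E₂ (K y)‖ = ‖E₁ y‖ := by
  have sy : ∀ {s : Matrix (Fin n) (Fin n) ℝ}, s.PosDef → s.IsSymm := by
    intro s h
    have h1 : sᴴ = s := h.1
    rwa [Matrix.conjTranspose_eq_transpose_of_trivial] at h1
  set u₁ : V n → ℝ := fun y => ‖E₁ y‖⁻¹ with hu₁
  set u₂ : V n → ℝ := fun y => ‖E₂ y‖⁻¹ with hu₂
  have su₁ : ContDiff ℝ ∞ u₁ := cd_u hE₁ hn₁
  have su₂ : ContDiff ℝ ∞ u₂ := cd_u hE₂ hn₂
  set v : V n → ℝ := fun y => u₂ (K y) with hv
  have sv : ContDiff ℝ ∞ v := su₂.comp D.sK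
  set f : V n → ℝ := fun y => v y - u₁ y with hf
  have sf : ContDiff ℝ ∞ f := sv.sub su₁
  have f0 : ∀ x ∉ Ω, f x = 0 := by
    intro x hx
    show ‖E₂ (K x)‖⁻¹ - ‖E₁ x‖⁻¹ = 0
    rw [LR.H158.K_off D hx, hE x hx, sub_self]
  have sH : ContDiff ℝ ∞ fun x : V n => x + w x := contDiff_id.add D.sw
  have hS : rs s₁ E₁ = psh (rs s₂ E₂) w K := funext fun x => (h1 x).symm
  have k1 : rb Ω (rs s₁ E₁) v f = ∫ y in Ω, qd s₁ α₁ E₁ y * v y * f y := by
    rw [hS, rb_push D hO (rs s₂ E₂) sv sf]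
    have g1 : (fun x => v (x + w x)) = u₂ := by
      funext x
      show u₂ (K (x + w x)) = u₂ x
      rw [D.l]
    rw [g1]
    have g2 := wku hi hb hs₂ (fun x => sy (hp₂ x)) hα₂ hE₂ hn₂ hL₂
      (φ := fun x => f (x + w x)) (sf.comp sH) (fun x hx => by
        show f (x + w x) = 0
        rw [D.z x hx, add_zero, f0 x hx])
    refine g2.trans ?_
    rw [cov D hO]
    refine setIntegral_congr_fun hO.measurableSet fun y _ => ?_
    show (jm w (K y)).det⁻¹ * (qd s₂ α₂ E₂ (K y) * ‖E₂ (K y)‖⁻¹ * f (K y + w (K y))) =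
      qd s₁ α₁ E₁ y * ‖E₂ (K y)‖⁻¹ * f y
    have g3 := qd_push D hn₁ hn₂ hp₂ h1 h2 (K y)
    rw [D.r y] at g3
    rw [D.r y, g3]
    ring
  have k2 : rb Ω (rs s₁ E₁) u₁ f = ∫ y in Ω, qd s₁ α₁ E₁ y * u₁ y * f y :=
    wku hi hb hs₁ (fun x => sy (hp₁ x)) hα₁ hE₁ hn₁ hL₁ sf f0
  have hsc : ∀ i j, Continuous fun x => rs s₁ E₁ x i j := fun i j =>
    (cd_rs hs₁ hE₁ i j).continuous
  have hqc : Continuous (qd s₁ α₁ E₁) := (cd_qd hs₁ hα₁ hE₁ hn₁).continuous
  have k3 : rb Ω (rs s₁ E₁) f f = ∫ y in Ω, qd s₁ α₁ E₁ y * f y * f y := by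
    have g1 := rb_add_left hb hsc sf su₁ sf
    have g2 : (fun y => f y + u₁ y) = v := by
      funext y
      show v y - u₁ y + u₁ y = v y
      ring
    rw [g2, k1, k2] at g1
    have g3 : rb Ω (rs s₁ E₁) f f = (∫ y in Ω, qd s₁ α₁ E₁ y * v y * f y) -
        ∫ y in Ω, qd s₁ α₁ E₁ y * u₁ y * f y := by linarith
    have j1 : IntegrableOn (fun y => qd s₁ α₁ E₁ y * v y * f y) Ω :=
      intOn hb ((hqc.mul sv.continuous).mul sf.continuous)
    have j2 : IntegrableOn (fun y => qd s₁ α₁ E₁ y * u₁ y * f y) Ω :=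
      intOn hb ((hqc.mul su₁.continuous).mul sf.continuous)
    rw [g3, ← integral_sub j1 j2]
    congr 1
    funext y
    show qd s₁ α₁ E₁ y * v y * f y - qd s₁ α₁ E₁ y * u₁ y * f y =
      qd s₁ α₁ E₁ y * (v y - u₁ y) * f y
    ring
  have hε2 : ε ≤ 1 / (2 * ((n : ℝ) + 1)) := by
    rw [hε]
    exact one_div_le_one_div_of_le (by positivity) (by nlinarith [Nat.cast_nonneg (α := ℝ) n])
  have k4 := f_zero hn hO hb hΩ (cd_rs hs₁ hE₁) hqc
    (fun x hx i j => (b1 x hx i j).trans hε2)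
    (fun x hx => qd_bd hε hn₁ x (b1 x hx) (b2 x hx)) sf f0 k3 y
  have k5 : ‖E₂ (K y)‖⁻¹ - ‖E₁ y‖⁻¹ = 0 := k4
  exact inv_injective (sub_eq_zero.1 k5)

/-! ### the gauge -/

/-- `conj E ∂_j E`. -/
theorem cdE (α : VF n) (E : V n → ℂ) (j : Fin n) (x : V n) :
    (starRingEnd ℂ) (E x) * pd j E x =
      pp α E j x - Complex.I * (α j x : ℂ) * ((‖E x‖ ^ 2 : ℝ) : ℂ) := by
  unfold pp cdm
  have h : ((‖E x‖ ^ 2 : ℝ) : ℂ) = (starRingEnd ℂ) (E x) * E x := by
    rw [Complex.conj_mul']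
    push_cast
    rfl
  rw [h]
  push_cast
  ring

/-- Row J_REC. -/
theorem recJ : RowREC := by
  intro n hn3
  have hn : 0 < n := by omega
  refine ⟨1 / (8 * ((n : ℝ) + 1)), by positivity, ?_⟩
  intro Ω hO hΩ hi s₁ s₂ hs₁ hs₂ hp₁ hp₂ _ α₁ α₂ hα₁ hα₂ _ E₁ E₂ hE₁ hE₂ hn₁ hn₂ hE hL₁ hL₂
    b1 b2 w K D h1 h2
  have hb : Bornology.IsBounded Ω := H833.bounded_core.subset hΩ
  have hm : ∀ y, ‖E₂ (K y)‖ = ‖E₁ y‖ := fun y =>
    mod_eq hn hO hi hb hΩ D hs₁ hs₂ hp₁ hp₂ hα₁ hα₂ hE₁ hE₂ hn₁ hn₂ hE hL₁ hL₂ rfl b1 b2 h1 h2 y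
  have hm' : ∀ x, ‖E₁ (x + w x)‖ = ‖E₂ x‖ := by
    intro x
    rw [← hm (x + w x), D.l]
  refine ⟨fun y => ?_, fun x => E₁ (x + w x) * (E₂ x)⁻¹, ?_, ?_, ?_, ?_⟩
  · have g1 : psh (rs s₂ E₂) w K y = ‖E₂ (K y)‖ ^ 2 • psh s₂ w K y := by
      unfold psh rs
      rw [Matrix.mul_smul, Matrix.smul_mul, smul_comm]
    have g2 := h1 y
    rw [g1, hm y] at g2
    have g3 : ‖E₁ y‖ ^ 2 ≠ 0 := pow_ne_zero 2 (norm_ne_zero_iff.2 (hn₁ y))
    exact smul_right_injective _ g3 g2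
  · exact (hE₁.comp (contDiff_id.add D.sw)).mul (hE₂.inv hn₂)
  · intro x
    rw [norm_mul, norm_inv, hm' x]
    exact mul_inv_cancel₀ (norm_ne_zero_iff.2 (hn₂ x))
  · intro x hx
    show E₁ (x + w x) * (E₂ x)⁻¹ = 1
    rw [D.z x hx, add_zero, hE x hx]
    exact mul_inv_cancel₀ (hn₁ x)
  · intro i x
    set U : V n → ℂ := fun x => E₁ (x + w x) * (E₂ x)⁻¹ with hU
    have sU : ContDiff ℝ ∞ U := (hE₁.comp (contDiff_id.add D.sw)).mul (hE₂.inv hn₂)
    have hUE : (fun x => U x * E₂ x) = fun x => E₁ (x + w x) := by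
      funext x
      show E₁ (x + w x) * (E₂ x)⁻¹ * E₂ x = _
      rw [mul_assoc, inv_mul_cancel₀ (hn₂ x), mul_one]
    -- the derivative of `U E₂`
    have d1 : U x * pd i E₂ x + E₂ x * pd i U x =
        ∑ j, (jm w x j i : ℂ) * pd j E₁ (x + w x) := by
      rw [← pdm_c (dif sU x) (dif hE₂ x) i, hUE]
      exact LR.H158.pd_comp D.sw (dif hE₁ _) i
    -- the derivative of `|E|²`
    have sr₁ : ContDiff ℝ ∞ (fun y => ‖E₁ y‖ ^ 2) := hE₁.norm_sq ℝ
    have sr₂ : ContDiff ℝ ∞ (fun y => ‖E₂ y‖ ^ 2) := hE₂.norm_sq ℝ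
    have d2 : (pp α₂ E₂ i x).re = ∑ j, jm w x j i * (pp α₁ E₁ j (x + w x)).re := by
      have g1 := LR.H158.pd_comp D.sw (dif (oc_contDiff sr₁) (x + w x)) i
      have g2 : (fun x => oc (fun y => ‖E₁ y‖ ^ 2) (x + w x)) = oc (fun y => ‖E₂ y‖ ^ 2) := by
        funext z
        show ((‖E₁ (z + w z)‖ ^ 2 : ℝ) : ℂ) = ((‖E₂ z‖ ^ 2 : ℝ) : ℂ)
        rw [hm' z]
      rw [g2, pd_oc sr₂] at g1
      simp only [pd_oc sr₁] at g1
      have g3 : pd i (fun y => ‖E₂ y‖ ^ 2) x =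
          ∑ j, jm w x j i * pd j (fun y => ‖E₁ y‖ ^ 2) (x + w x) := by exact_mod_cast g1
      simp only [pp_re (α := α₁) hE₁] at g3
      rw [pp_re (α := α₂) hE₂] at g3
      have g4 : ∑ j, jm w x j i * (2 * (pp α₁ E₁ j (x + w x)).re) =
          2 * ∑ j, jm w x j i * (pp α₁ E₁ j (x + w x)).re := by
        rw [Finset.mul_sum]
        refine Finset.sum_congr rfl fun j _ => ?_
        ring
      rw [g4] at g3
      linarith
    have d3 : (pp α₂ E₂ i x).im = ∑ j, jm w x j i * (pp α₁ E₁ j (x + w x)).im := by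
      have g1 := av_push D hn₁ hn₂ hp₂ h1 h2 x i
      unfold av at g1
      rw [hm' x] at g1
      have g2 := u_sq hn₂ x
      have g3 : ∑ j, jm w x j i * (‖E₂ x‖⁻¹ ^ 2 * (pp α₁ E₁ j (x + w x)).im) =
          ‖E₂ x‖⁻¹ ^ 2 * ∑ j, jm w x j i * (pp α₁ E₁ j (x + w x)).im := by
        rw [Finset.mul_sum]
        refine Finset.sum_congr rfl fun j _ => ?_
        ring
      rw [g3] at g1
      have g4 : ‖E₂ x‖⁻¹ ^ 2 ≠ 0 := pow_ne_zero 2 (inv_ne_zero (norm_ne_zero_iff.2 (hn₂ x)))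
      exact mul_left_cancel₀ g4 g1
    have d4 : pp α₂ E₂ i x = ∑ j, (jm w x j i : ℂ) * pp α₁ E₁ j (x + w x) := by
      apply Complex.ext
      · rw [d2, Complex.re_sum]
        exact Finset.sum_congr rfl fun j _ => (Complex.re_ofReal_mul _ _).symm
      · rw [d3, Complex.im_sum]
        exact Finset.sum_congr rfl fun j _ => (Complex.im_ofReal_mul _ _).symm
    -- conclusion
    set r : ℂ := ((‖E₂ x‖ ^ 2 : ℝ) : ℂ) with hr
    have hr0 : r ≠ 0 := by
      rw [hr]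
      exact_mod_cast pow_ne_zero 2 (norm_ne_zero_iff.2 (hn₂ x))
    have r1 : (starRingEnd ℂ) (E₂ x) * E₂ x = r := by
      rw [Complex.conj_mul', hr]
      push_cast
      rfl
    have r2 : (starRingEnd ℂ) (E₁ (x + w x)) * E₁ (x + w x) = r := by
      rw [Complex.conj_mul', hr, hm' x]
      push_cast
      rfl
    have c1 : (starRingEnd ℂ) (U x) * (starRingEnd ℂ) (E₂ x) =
        (starRingEnd ℂ) (E₁ (x + w x)) := by
      rw [← map_mul]
      exact congrArg _ (congrFun hUE x)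
    have c2 : (starRingEnd ℂ) (E₁ (x + w x)) * U x = (starRingEnd ℂ) (E₂ x) := by
      have g1 : (starRingEnd ℂ) (E₁ (x + w x)) * U x * E₂ x =
          (starRingEnd ℂ) (E₂ x) * E₂ x := by
        rw [r1, ← r2, mul_assoc]
        congr 1
        exact congrFun hUE x
      exact mul_right_cancel₀ (hn₂ x) g1
    have c3 : r * ((starRingEnd ℂ) (U x) * pd i U x) =
        (∑ j, (jm w x j i : ℂ) * ((starRingEnd ℂ) (E₁ (x + w x)) * pd j E₁ (x + w x))) -
          (starRingEnd ℂ) (E₂ x) * pd i E₂ x := by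
      have g1 : ∑ j, (jm w x j i : ℂ) * ((starRingEnd ℂ) (E₁ (x + w x)) * pd j E₁ (x + w x)) =
          (starRingEnd ℂ) (E₁ (x + w x)) * ∑ j, (jm w x j i : ℂ) * pd j E₁ (x + w x) := by
        rw [Finset.mul_sum]
        refine Finset.sum_congr rfl fun j _ => ?_
        ring
      rw [g1, ← d1]
      linear_combination (-((starRingEnd ℂ) (U x) * pd i U x)) * r1 +
        (E₂ x * pd i U x) * c1 - (pd i E₂ x) * c2
    have c4 : ∑ j, (jm w x j i : ℂ) * ((starRingEnd ℂ) (E₁ (x + w x)) * pd j E₁ (x + w x)) =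
        pp α₂ E₂ i x - Complex.I * ((∑ j, jm w x j i * α₁ j (x + w x) : ℝ) : ℂ) * r := by
      rw [d4]
      push_cast
      rw [Finset.mul_sum, Finset.sum_mul, ← Finset.sum_sub_distrib]
      refine Finset.sum_congr rfl fun j _ => ?_
      rw [cdE α₁ E₁ j (x + w x), hm' x, ← hr]
      ring
    rw [c4, cdE α₂ E₂ i x, ← hr] at c3
    have c5 : r * ((starRingEnd ℂ) (U x) * pd i U x) = r * (Complex.I * (α₂ i x : ℂ) -
        Complex.I * ((∑ j, jm w x j i * α₁ j (x + w x) : ℝ) : ℂ)) := by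
      rw [c3]
      ring
    have c6 := mul_left_cancel₀ hr0 c5
    rw [c6]
    ring

end Vale.Agent.P088.LR.J.H641
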