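import Vale.Agent.P088.H599.J.Abs3

/-!
# P088, row U_ABS: structure lemma and the algebra at one frequency
-/

open MeasureTheory Set
open scoped ContDiff Matrix

noncomputable section

namespace Vale.Agent.P088.LR.U.H641

open Vale.Agent.P088.LR.CF Vale.Agent.P088.LR.CF.H599 Vale.Agent.P088.LR.U
  Vale.Agent.P088.LR.U.H599 H158

variable {n N : ℕ}

lemma str_pt (P : Matrix (Fin N) (Fin N) ℂ) (r : ℂ) (α β : Fin N) :
    (N : ℂ) * (r • P) α β + ∑ γ, (r • P) α β * (P - 1) γ γ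
      = (if α = β then 1 else 0) * ∑ γ, (r • P) γ γ + ∑ γ, (r • P) γ γ * (P - 1) α β := by
  simp only [Matrix.smul_apply, smul_eq_mul, Matrix.sub_apply, Matrix.one_apply, if_true,
    ← Finset.mul_sum, ← Finset.sum_mul, Finset.sum_sub_distrib, Finset.sum_const,
    Finset.card_univ, Fintype.card_fin, nsmul_eq_mul, mul_one]
  ring

/-- The structure `X = r P`, `P` near `1`, `r` scalar: `N X = (tr X) 1 + small`. -/
lemma str_bd (hA3 : RowA3) (n N : ℕ) : ∃ C : ℝ, 0 < C ∧ ∀ (X P : MC n N) (r : V n → ℂ)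
    (A ε : ℝ), 0 ≤ A → 0 ≤ ε → (∀ x, X x = r x • P x) → SmC P →
    (∀ α β, Sb fun x => X x α β) → (∀ α β, Bd (n + 2) A fun x => X x α β) →
    ClC (n + 2 + n + 1) ε (fun x => P x - 1) → ∀ (α β : Fin N) (k : Ix n),
    wt k ^ (n + 2) * ‖(N : ℂ) * cf 0 (fun x => X x α β) k
      - (if α = β then 1 else 0) * ∑ γ, cf 0 (fun x => X x γ γ) k‖ ≤ C * ε * A := by
  obtain ⟨c, hc, hm⟩ := mul_bd hA3 n (n + 2)
  refine ⟨c * (2 * N + 1), by positivity, ?_⟩
  intro X P r A ε hA hε hX hP sX bX hPε α β k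
  have sP : ∀ α β, ContDiff ℝ ∞ fun x => (P x - 1) α β := by
    intro α β
    simp only [Matrix.sub_apply]
    exact (hP α β).sub contDiff_const
  have s1 : ∀ γ, Sb fun x => X x γ γ * (P x - 1) α β := fun γ => (sX γ γ).mul (sP α β)
  have s2 : ∀ γ, Sb fun x => X x α β * (P x - 1) γ γ := fun γ => (sX α β).mul (sP γ γ)
  have b1 : ∀ γ, Bd (n + 2) (c * ε * A) fun x => X x γ γ * (P x - 1) α β := fun γ =>
    hm _ _ A ε (sX γ γ) (bX γ γ) (sP α β) (hPε α β)
  have b2 : ∀ γ, Bd (n + 2) (c * ε * A) fun x => X x α β * (P x - 1) γ γ := fun γ =>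
    hm _ _ A ε (sX α β) (bX α β) (sP γ γ) (hPε γ γ)
  have hpt : (fun x => (N : ℂ) * X x α β + ∑ γ, X x α β * (P x - 1) γ γ)
      = fun x => (if α = β then 1 else 0) * ∑ γ, X x γ γ + ∑ γ, X x γ γ * (P x - 1) α β := by
    funext x
    rw [hX x]
    exact str_pt (P x) (r x) α β
  have h1 : cf 0 (fun x => (N : ℂ) * X x α β + ∑ γ, X x α β * (P x - 1) γ γ) k
      = cf 0 (fun x => (if α = β then 1 else 0) * ∑ γ, X x γ γ
        + ∑ γ, X x γ γ * (P x - 1) α β) k := by rw [hpt]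
  rw [cf_add ((sX α β).mul' contDiff_const) (Sb.sum s2),
    cf_add ((Sb.sum fun γ => sX γ γ).mul' contDiff_const) (Sb.sum s1), cf_smul, cf_smul,
    cf_sum s2, cf_sum s1, cf_sum fun γ => sX γ γ] at h1
  have h2 : (N : ℂ) * cf 0 (fun x => X x α β) k
      - (if α = β then 1 else 0) * ∑ γ, cf 0 (fun x => X x γ γ) k
      = ∑ γ, cf 0 (fun x => X x γ γ * (P x - 1) α β) k
        - ∑ γ, cf 0 (fun x => X x α β * (P x - 1) γ γ) k := by
    linear_combination h1
  rw [h2]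
  have hW : 0 ≤ wt k ^ (n + 2) := pow_nonneg (H501.wt_pos k).le _
  have hcε : 0 ≤ c * ε * A := by positivity
  calc wt k ^ (n + 2) * ‖∑ γ, cf 0 (fun x => X x γ γ * (P x - 1) α β) k
        - ∑ γ, cf 0 (fun x => X x α β * (P x - 1) γ γ) k‖
      ≤ wt k ^ (n + 2) * (∑ γ, ‖cf 0 (fun x => X x γ γ * (P x - 1) α β) k‖
        + ∑ γ, ‖cf 0 (fun x => X x α β * (P x - 1) γ γ) k‖) := by
        refine mul_le_mul_of_nonneg_left ?_ hW
        exact (norm_sub_le _ _).trans (add_le_add (norm_sum_le _ _) (norm_sum_le _ _))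
    _ = ∑ γ, wt k ^ (n + 2) * ‖cf 0 (fun x => X x γ γ * (P x - 1) α β) k‖
        + ∑ γ, wt k ^ (n + 2) * ‖cf 0 (fun x => X x α β * (P x - 1) γ γ) k‖ := by
        rw [mul_add, Finset.mul_sum, Finset.mul_sum]
    _ ≤ ∑ _γ : Fin N, c * ε * A + ∑ _γ : Fin N, c * ε * A :=
        add_le_add (Finset.sum_le_sum fun γ _ => b1 γ k) (Finset.sum_le_sum fun γ _ => b2 γ k)
    _ = c * (2 * N) * ε * A := by
        simp only [Finset.sum_const, Finset.card_univ, Fintype.card_fin, nsmul_eq_mul]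
        ring
    _ ≤ c * (2 * N + 1) * ε * A := by
        have h3 : c * (2 * N + 1) * ε * A = c * (2 * N) * ε * A + c * ε * A := by ring
        rw [h3]
        linarith

/-- A unit vector orthogonal to `ξ`. -/
lemma exists_orth (hn : 2 ≤ n) (ξ : V n) : ∃ v : V n, nr v = 1 ∧ ∑ j, v j * ξ j = 0 := by
  set p : Fin n := ⟨0, by omega⟩ with hp
  set q : Fin n := ⟨1, by omega⟩ with hq
  have hpq : p ≠ q := by
    intro h
    have := congrArg Fin.val h
    simp [hp, hq] at this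
  obtain ⟨w, hw0, hw⟩ : ∃ w : V n, w ≠ 0 ∧ ∑ j, w j * ξ j = 0 := by
    by_cases h : ξ p = 0
    · refine ⟨Pi.single p 1, ?_, ?_⟩
      · intro hc
        have := congrFun hc p
        simp at this
      · rw [Finset.sum_eq_single p]
        · simp [h]
        · intro j _ hj
          simp [Pi.single_eq_of_ne hj]
        · intro hc
          exact absurd (Finset.mem_univ p) hc
    · refine ⟨Pi.single q (ξ p) + Pi.single p (-ξ q), ?_, ?_⟩
      · intro hc
        have := congrFun hc q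
        simp only [Pi.add_apply, Pi.single_eq_same, Pi.single_eq_of_ne hpq.symm, add_zero,
          Pi.zero_apply] at this
        exact h this
      · simp only [Pi.add_apply, add_mul, Finset.sum_add_distrib]
        rw [Finset.sum_eq_single q, Finset.sum_eq_single p]
        · simp only [Pi.single_eq_same]
          ring
        · intro j _ hj
          simp [Pi.single_eq_of_ne hj]
        · intro hc
          exact absurd (Finset.mem_univ p) hc
        · intro j _ hj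
          simp [Pi.single_eq_of_ne hj]
        · intro hc
          exact absurd (Finset.mem_univ q) hc
  have hpos : 0 < nr w := by
    refine lt_of_le_of_ne (nr_nonneg w) fun h0 => hw0 ?_
    funext j
    have h1 := abs_le_nr w j
    rw [← h0] at h1
    exact abs_eq_zero.1 (le_antisymm h1 (abs_nonneg _))
  refine ⟨(nr w)⁻¹ • w, ?_, ?_⟩
  · rw [nr_smul, abs_of_pos (inv_pos.2 hpos), inv_mul_cancel₀ hpos.ne']
  · have : ∑ j, ((nr w)⁻¹ • w) j * ξ j = (nr w)⁻¹ * ∑ j, w j * ξ j := by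
      rw [Finset.mul_sum]
      exact Finset.sum_congr rfl fun j _ => by simp only [Pi.smul_apply, smul_eq_mul]; ring
    rw [this, hw, mul_zero]

lemma bR_one (u : V n) : bR (fun i j => if i = j then (1 : ℂ) else 0) u u
    = ((nr u : ℝ) : ℂ) ^ 2 := by
  rw [← Complex.ofReal_pow, nr_sq]
  unfold bR
  push_cast
  refine Finset.sum_congr rfl fun i _ => ?_
  simp only [mul_ite, mul_one, mul_zero, Finset.sum_ite_eq, Finset.mem_univ, if_true]
  ring

/-- A form near `c` times the identity. -/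
lemma bR_near {H : Fin n → Fin n → ℂ} {c : ℂ} {m : ℝ}
    (h : ∀ i j, ‖H i j - if i = j then c else 0‖ ≤ m) (u : V n) :
    ‖bR H u u - ((nr u : ℝ) : ℂ) ^ 2 * c‖ ≤ n ^ 2 * nr u ^ 2 * m := by
  have h0 : bR H u u - ((nr u : ℝ) : ℂ) ^ 2 * c
      = ∑ i, ∑ j, (u i : ℂ) * u j * (H i j - if i = j then c else 0) := by
    rw [← bR_one u]
    unfold bR
    rw [Finset.sum_mul, ← Finset.sum_sub_distrib]
    refine Finset.sum_congr rfl fun i _ => ?_
    rw [Finset.sum_mul, ← Finset.sum_sub_distrib]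
    refine Finset.sum_congr rfl fun j _ => ?_
    by_cases hij : i = j
    · simp only [hij, if_true]
      ring
    · simp only [hij, if_false]
      ring
  rw [h0]
  have h1 : ∀ i j, ‖(u i : ℂ) * u j * (H i j - if i = j then c else 0)‖ ≤ nr u ^ 2 * m := by
    intro i j
    rw [norm_mul, norm_mul, Complex.norm_real, Complex.norm_real, Real.norm_eq_abs,
      Real.norm_eq_abs, sq]
    refine mul_le_mul ?_ (h i j) (norm_nonneg _) (mul_nonneg (nr_nonneg u) (nr_nonneg u))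
    exact mul_le_mul (abs_le_nr u i) (abs_le_nr u j) (abs_nonneg _) (nr_nonneg u)
  calc ‖∑ i, ∑ j, (u i : ℂ) * u j * (H i j - if i = j then c else 0)‖
      ≤ ∑ i : Fin n, ∑ j : Fin n, nr u ^ 2 * m :=
        (norm_sum_le _ _).trans (Finset.sum_le_sum fun i _ =>
          (norm_sum_le _ _).trans (Finset.sum_le_sum fun j _ => h1 i j))
    _ = n ^ 2 * nr u ^ 2 * m := by
        simp only [Finset.sum_const, Finset.card_univ, Fintype.card_fin, nsmul_eq_mul]
        ring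

/-- Division by `N ≥ 1`. -/
lemma div_N (hN : 1 ≤ N) {x y : ℂ} {R t : ℝ} (h : ‖(N : ℂ) * x - y‖ ≤ R) (hy : ‖y‖ ≤ t) :
    ‖x‖ ≤ R + t := by
  have h1 : (1 : ℝ) ≤ N := by exact_mod_cast hN
  have h2 : ‖(N : ℂ) * x‖ = N * ‖x‖ := by
    rw [norm_mul, Complex.norm_natCast]
  have h3 : ‖(N : ℂ) * x‖ ≤ R + t := by
    have h4 : (N : ℂ) * x = ((N : ℂ) * x - y) + y := by ring
    rw [h4]
    exact (norm_add_le _ _).trans (add_le_add h hy)
  rw [h2] at h3
  refine le_trans ?_ h3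
  exact le_mul_of_one_le_left (norm_nonneg _) h1

/-- The algebra at one frequency. -/
lemma fin_alg (hn : 2 ≤ n) (hN : 1 ≤ N) {H : Fin n → Fin n → Fin N → Fin N → ℂ}
    (hs : ∀ i j α β, H i j α β = H j i α β) {ξ : V n} (h1 : 1 ≤ nr ξ) {E S R : ℝ}
    (hE0 : 0 ≤ E) (hS0 : 0 ≤ S) (hR0 : 0 ≤ R)
    (hE : ∀ v : V n, nr v = 1 → ∑ j, v j * ξ j = 0 → ∀ α β,
      ‖((nr ξ : ℝ) : ℂ) ^ 2 * (∑ i, ∑ j, (v i : ℂ) * v j * H i j α β)
        + ∑ i, ∑ j, (ξ i : ℂ) * ξ j * H i j α β‖ ≤ nr ξ ^ 2 * E)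
    (hS : ∀ a, ‖∑ i, (ξ i : ℂ) * ∑ γ, H i a γ γ‖ ≤ nr ξ * S)
    (hP : ∀ i j, i ≠ j → ∀ α β,
      ‖(N : ℂ) * H i j α β - (if α = β then 1 else 0) * ∑ γ, H i j γ γ‖ ≤ R)
    (hD : ∀ i j, i ≠ j → ∀ α β, ‖(N : ℂ) * (H i i α β - H j j α β)
      - (if α = β then 1 else 0) * ∑ γ, (H i i γ γ - H j j γ γ)‖ ≤ R)
    (i j : Fin n) (α β : Fin N) :
    ‖H i j α β‖ ≤ E + (n ^ 2 + 1) * (R + 2 * (N * E + (2 * n + 1) * S)) := by
  have hX : 0 < nr ξ := by linarith
  have hX2 : 0 < nr ξ ^ 2 := by positivity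
  -- the traces
  set T : Fin n → Fin n → ℂ := fun i j => ∑ γ, H i j γ γ with hT
  have hTs : ∀ i j, T i j = T j i := fun i j => Finset.sum_congr rfl fun γ _ => hs i j γ γ
  have hTE : ∀ v : V n, nr v = 1 → ∑ j, v j * ξ j = 0 →
      ‖((nr ξ : ℝ) : ℂ) ^ 2 * bR T v v + bR T ξ ξ‖ ≤ N * (nr ξ ^ 2 * E) := by
    intro v hv hvξ
    have e1 : ∀ u : V n, bR T u u = ∑ γ, ∑ i, ∑ j, (u i : ℂ) * u j * H i j γ γ := by
      intro u
      unfold bR
      simp only [hT, Finset.mul_sum]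
      rw [Finset.sum_congr rfl fun i _ => Finset.sum_comm, Finset.sum_comm]
    rw [e1 v, e1 ξ, Finset.mul_sum, ← Finset.sum_add_distrib]
    refine (norm_sum_le _ _).trans ?_
    calc ∑ γ, ‖((nr ξ : ℝ) : ℂ) ^ 2 * (∑ i, ∑ j, (v i : ℂ) * v j * H i j γ γ)
          + ∑ i, ∑ j, (ξ i : ℂ) * ξ j * H i j γ γ‖ ≤ ∑ _γ : Fin N, nr ξ ^ 2 * E :=
          Finset.sum_le_sum fun γ _ => hE v hv hvξ γ γ
      _ = N * (nr ξ ^ 2 * E) := by simp
  set t : ℝ := N * E + (2 * n + 1) * S with ht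
  have ht0 : 0 ≤ t := by positivity
  have hTb : ∀ a b, ‖T a b‖ ≤ t := by
    intro a b
    have h2 := alg_bound hTs h1 (by positivity) hTE hS a b
    have h3 : nr ξ ^ 2 * ‖T a b‖ ≤ nr ξ ^ 2 * t := by
      refine h2.trans (le_of_eq ?_)
      rw [ht]
      ring
    exact le_of_mul_le_mul_left h3 hX2
  have hδ : ∀ (α β : Fin N) (z : ℂ) (r : ℝ), 0 ≤ r → ‖z‖ ≤ r →
      ‖(if α = β then (1 : ℂ) else 0) * z‖ ≤ r := by
    intro α β z r hr hz
    split_ifs
    · rwa [one_mul]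
    · rw [zero_mul, norm_zero]
      exact hr
  set m : ℝ := R + 2 * t with hm
  have hm0 : 0 ≤ m := by positivity
  have hoff : ∀ i j, i ≠ j → ∀ α β, ‖H i j α β‖ ≤ m := by
    intro i j hij α β
    have h2 := div_N hN (hP i j hij α β) (hδ α β _ t ht0 (hTb i j))
    rw [hm]
    linarith
  have hdd : ∀ i j, i ≠ j → ∀ α β, ‖H i i α β - H j j α β‖ ≤ m := by
    intro i j hij α β
    have h3 : ‖∑ γ, (H i i γ γ - H j j γ γ)‖ ≤ 2 * t := by
      rw [Finset.sum_sub_distrib]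
      refine (norm_sub_le _ _).trans ?_
      have := hTb i i
      have := hTb j j
      simp only [hT] at *
      linarith
    exact div_N hN (hD i j hij α β) (hδ α β _ (2 * t) (by positivity) h3)
  have hH : ∀ p, ∀ α β, ∀ i j, ‖H i j α β - if i = j then H p p α β else 0‖ ≤ m := by
    intro p α β i j
    by_cases hij : i = j
    · subst hij
      rw [if_pos rfl]
      by_cases hip : i = p
      · subst hip
        rw [sub_self, norm_zero]
        exact hm0
      · exact hdd i p hip α β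
    · rw [if_neg hij, sub_zero]
      exact hoff i j hij α β
  obtain ⟨v, hv1, hvξ⟩ := exists_orth hn ξ
  have hpp : ∀ p α β, ‖H p p α β‖ ≤ E + n ^ 2 * m := by
    intro p α β
    have b1 := bR_near (H := fun i j => H i j α β) (hH p α β) v
    have b2 := bR_near (H := fun i j => H i j α β) (hH p α β) ξ
    have b3 := hE v hv1 hvξ α β
    have e1 : ∀ u : V n, (∑ i, ∑ j, (u i : ℂ) * u j * H i j α β)
        = bR (fun i j => H i j α β) u u := fun u => rfl
    rw [e1, e1] at b3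
    rw [hv1] at b1
    set x := H p p α β with hx
    set bv := bR (fun i j => H i j α β) v v with hbv
    set bξ := bR (fun i j => H i j α β) ξ ξ with hbξ
    have h4 : 2 * (((nr ξ : ℝ) : ℂ) ^ 2 * x) = (((nr ξ : ℝ) : ℂ) ^ 2 * bv + bξ)
        - ((nr ξ : ℝ) : ℂ) ^ 2 * (bv - ((1 : ℝ) : ℂ) ^ 2 * x)
        - (bξ - ((nr ξ : ℝ) : ℂ) ^ 2 * x) := by
      push_cast
      ring
    have h5 : 2 * (nr ξ ^ 2 * ‖x‖) ≤ nr ξ ^ 2 * E + nr ξ ^ 2 * (n ^ 2 * 1 ^ 2 * m)
        + n ^ 2 * nr ξ ^ 2 * m := by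
      have h6 : ‖2 * (((nr ξ : ℝ) : ℂ) ^ 2 * x)‖ = 2 * (nr ξ ^ 2 * ‖x‖) := by
        rw [norm_mul, norm_mul, norm_pow, Complex.norm_real, Real.norm_eq_abs,
          abs_of_pos hX]
        simp
      rw [← h6, h4]
      refine (norm_sub_le _ _).trans (add_le_add ((norm_sub_le _ _).trans
        (add_le_add b3 ?_)) b2)
      rw [norm_mul, norm_pow, Complex.norm_real, Real.norm_eq_abs, abs_of_pos hX]
      exact mul_le_mul_of_nonneg_left b1 hX2.le
    have h7 : nr ξ ^ 2 * (2 * ‖x‖) ≤ nr ξ ^ 2 * (E + 2 * (n ^ 2 * m)) := by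
      calc nr ξ ^ 2 * (2 * ‖x‖) = 2 * (nr ξ ^ 2 * ‖x‖) := by ring
        _ ≤ _ := h5
        _ = nr ξ ^ 2 * (E + 2 * (n ^ 2 * m)) := by ring
    have h8 := le_of_mul_le_mul_left h7 hX2
    linarith
  have hfin := hH i α β i j
  have h9 : ‖(if i = j then H i i α β else 0)‖ ≤ E + n ^ 2 * m := by
    split_ifs
    · exact hpp i α β
    · rw [norm_zero]
      positivity
  calc ‖H i j α β‖ = ‖(H i j α β - if i = j then H i i α β else 0)
        + if i = j then H i i α β else 0‖ := by rw [sub_add_cancel]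
    _ ≤ m + (E + n ^ 2 * m) := (norm_add_le _ _).trans (add_le_add hfin h9)
    _ = E + (n ^ 2 + 1) * (R + 2 * (N * E + (2 * n + 1) * S)) := by
        rw [hm, ht]
        ring

/-- The coefficients of `q`. -/
lemma q_alg {Q : Fin n → ℂ} {ξ : V n} (h1 : 1 ≤ nr ξ) (hQ : ∑ i, (ξ i : ℂ) * Q i = 0) {E : ℝ}
    (hE0 : 0 ≤ E) (hE : ∀ v : V n, nr v = 1 → ∑ j, v j * ξ j = 0 → ‖∑ i, (v i : ℂ) * Q i‖ ≤ E)
    (i : Fin n) : ‖Q i‖ ≤ E := by
  have hX : 0 < nr ξ := by linarith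
  have hX0 : nr ξ ≠ 0 := hX.ne'
  have e1 : Q i = ∑ j, (pa ξ i j : ℂ) * Q j := by
    have h2 : ∀ j, (pa ξ i j : ℂ) * Q j = (if j = i then Q j else 0)
        + (-(ξ i / nr ξ ^ 2) : ℝ) * ((ξ j : ℂ) * Q j) := by
      intro j
      by_cases hj : j = i
      · subst hj
        simp only [pa, Pi.add_apply, Pi.smul_apply, smul_eq_mul, Pi.single_eq_same, if_true]
        push_cast
        ring
      · simp only [pa, Pi.add_apply, Pi.smul_apply, smul_eq_mul, Pi.single_eq_of_ne hj, hj,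
          if_false]
        push_cast
        ring
    simp only [h2, Finset.sum_add_distrib, ← Finset.mul_sum, hQ, mul_zero, add_zero,
      Finset.sum_ite_eq', Finset.mem_univ, if_true]
  have hp1 : nr (pa ξ i) ≤ 1 := by
    rw [← Real.sqrt_one]
    exact Real.sqrt_le_sqrt (pa_sq hX0 i)
  rcases eq_or_ne (nr (pa ξ i)) 0 with h0 | h0
  · have hz : ∀ j, pa ξ i j = 0 := by
      intro j
      have h3 := abs_le_nr (pa ξ i) j
      rw [h0] at h3
      exact abs_eq_zero.1 (le_antisymm h3 (abs_nonneg _))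
    rw [e1]
    simp only [hz, Complex.ofReal_zero, zero_mul, Finset.sum_const_zero, norm_zero]
    exact hE0
  · have hpos : 0 < nr (pa ξ i) := lt_of_le_of_ne (nr_nonneg _) (Ne.symm h0)
    have h3 := hE ((nr (pa ξ i))⁻¹ • pa ξ i)
      (by rw [nr_smul, abs_of_pos (inv_pos.2 hpos), inv_mul_cancel₀ h0]) (by
        have : ∑ j, ((nr (pa ξ i))⁻¹ • pa ξ i) j * ξ j
            = (nr (pa ξ i))⁻¹ * ∑ j, pa ξ i j * ξ j := by
          rw [Finset.mul_sum]
          exact Finset.sum_congr rfl fun j _ => by simp only [Pi.smul_apply, smul_eq_mul]; ring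
        rw [this, pa_orth hX0, mul_zero])
    have h4 : ∑ j, (((nr (pa ξ i))⁻¹ • pa ξ i) j : ℂ) * Q j
        = ((nr (pa ξ i) : ℝ) : ℂ)⁻¹ * Q i := by
      conv_rhs => rw [e1]
      rw [Finset.mul_sum]
      refine Finset.sum_congr rfl fun j _ => ?_
      simp only [Pi.smul_apply, smul_eq_mul]
      push_cast
      ring
    rw [h4, norm_mul, norm_inv, Complex.norm_real, Real.norm_eq_abs, abs_of_pos hpos,
      inv_mul_le_iff₀ hpos] at h3
    refine h3.trans ?_
    exact mul_le_of_le_one_left hE0 hp1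

end Vale.Agent.P088.LR.U.H641
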