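import Vale.Agent.P088.H599.J.Abs3

/-!
# P088, row U_ABS: the real part of the trace of the gauge identity
-/

open MeasureTheory Set
open scoped ContDiff Matrix

noncomputable section

namespace Vale.Agent.P088.LR.U.H641

open Vale.Agent.P088.LR.CF Vale.Agent.P088.LR.CF.H599 Vale.Agent.P088.LR.U
  Vale.Agent.P088.LR.U.H599 H158

variable {n N : ℕ}

lemma fr_neg (k : Ix n) (i : Fin n) : fr (0 : V n) (-k) i = -fr 0 k i := by
  simp [fr]

lemma star_fac (k : Ix n) (i : Fin n) :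
    star (2 * (Real.pi : ℂ) * Complex.I * (fr (0 : V n) (-k) i : ℂ))
      = 2 * (Real.pi : ℂ) * Complex.I * (fr (0 : V n) k i : ℂ) := by
  rw [fr_neg, Complex.star_def]
  simp only [map_mul, Complex.conj_ofReal, Complex.conj_I, map_ofNat, Complex.ofReal_neg,
    map_neg]
  ring

variable {h : Fin n → Fin n → MC n N} {q : Fin n → MC n N} {G : Fin n → Fin n → MC n N}
  {D : Fin n → MC n N} {τ : MC n N} {κ : Fin n → MC n N}

/-- The divergence of the trace of `h` is small. -/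
lemma tr_div (H : GDat h q G D τ κ) (hh : ∀ i j x, (h i j x)ᴴ = h i j x)
    (hq : ∀ i x, (q i x)ᴴ = -q i x) (hD : ∀ a x, ((D a x).trace).re = 0) {e : ℝ} (he : 0 ≤ e)
    (be : ∀ i a α β, Bd (n + 2) e (eM h G D τ i a α β))
    (bp : ∀ a α β, Bd (n + 1) e (psM q G D κ a α β)) (a : Fin n) {k : Ix n} (hk : k ≠ 0) :
    wt k ^ (n + 2) * ‖∑ i, (fr 0 k i : ℂ) * ∑ γ, cf 0 (fun x => h i a x γ γ) k‖
      ≤ (2 * n + 1) * N * nr (fr 0 k) * e := by
  have hn0 : (0 : ℝ) ≤ n := Nat.cast_nonneg n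
  have hN0 : (0 : ℝ) ≤ N := Nat.cast_nonneg N
  have hw : 0 < wt k := H501.wt_pos k
  have hW : 0 ≤ wt k ^ (n + 2) := pow_nonneg hw.le _
  have hpi : (3 : ℝ) < Real.pi := Real.pi_gt_three
  set U : Fin n → Ix n → ℂ := fun i k => ∑ γ, cf 0 (fun x => h i a x γ γ) k with hU
  set Em : Fin n → Ix n → ℂ := fun i k => ∑ γ, cf 0 (eM h G D τ i a γ γ) k with hEm
  set Dd : Ix n → ℂ := fun k => ∑ γ, cf 0 (fun x => D a x γ γ) k with hDd
  set Qs : Ix n → ℂ := fun k => ∑ γ, cf 0 (fun x => q a x γ γ) k with hQq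
  set Pp : Ix n → ℂ := fun k => ∑ γ, cf 0 (psM q G D κ a γ γ) k with hPp
  have tri : ∀ k : Ix n, (∑ i, 2 * Real.pi * Complex.I * (fr 0 k i : ℂ) * ((U i k + Em i k)
      + 2 * Real.pi * Complex.I * (fr 0 k i : ℂ) * Dd k) + Qs k) + Pp k = 0 := by
    intro k
    have h0 : ∑ γ, ((∑ i, 2 * Real.pi * Complex.I * (fr 0 k i : ℂ)
        * ((cf 0 (fun x => h i a x γ γ) k + cf 0 (eM h G D τ i a γ γ) k)
          + 2 * Real.pi * Complex.I * (fr 0 k i : ℂ) * cf 0 (fun z => D a z γ γ) k)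
        + cf 0 (fun x => q a x γ γ) k) + cf 0 (psM q G D κ a γ γ) k) = 0 :=
      Finset.sum_eq_zero fun γ _ => H.idf a γ γ k
    rw [← h0, Finset.sum_add_distrib, Finset.sum_add_distrib, Finset.sum_comm]
    congr 2
    refine Finset.sum_congr rfl fun i _ => ?_
    simp only [hU, hEm, hDd, Finset.mul_sum, ← Finset.sum_add_distrib]
  have hUs : ∀ i k, star (U i (-k)) = U i k := by
    intro i k
    simp only [hU, star_sum]
    refine Finset.sum_congr rfl fun γ _ => ?_
    rw [← cf_star]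
    congr 1
    funext x
    exact congrFun (congrFun (hh i a x) γ) γ
  have hDs : ∀ k, star (Dd (-k)) = -Dd k := by
    intro k
    have h1 : Dd k = cf 0 (fun x => ∑ γ, D a x γ γ) k := (cf_sum (fun γ => H.sD a γ γ) k).symm
    have h2 : Dd (-k) = cf 0 (fun x => ∑ γ, D a x γ γ) (-k) :=
      (cf_sum (fun γ => H.sD a γ γ) (-k)).symm
    rw [h1, h2, ← cf_star]
    have h3 : (fun x => star (∑ γ, D a x γ γ)) = fun x => (-1 : ℂ) * ∑ γ, D a x γ γ := by
      funext x
      have h4 : (∑ γ, D a x γ γ).re = 0 := hD a x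
      apply Complex.ext
      · simp only [Complex.star_def, Complex.conj_re, neg_mul, one_mul, Complex.neg_re, h4,
          neg_zero]
      · simp only [Complex.star_def, Complex.conj_im, neg_mul, one_mul, Complex.neg_im]
    rw [h3, cf_smul]
    ring
  have hQs : ∀ k, star (Qs (-k)) = -Qs k := by
    intro k
    simp only [hQq, star_sum]
    rw [← Finset.sum_neg_distrib]
    refine Finset.sum_congr rfl fun γ _ => ?_
    rw [← cf_star]
    have h3 : (fun x => star (q a x γ γ)) = fun x => (-1 : ℂ) * q a x γ γ := by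
      funext x
      rw [neg_one_mul]
      exact congrFun (congrFun (hq a x) γ) γ
    rw [h3, cf_smul]
    ring
  have t1 := tri k
  have t2 := congrArg star (tri (-k))
  rw [star_zero, star_add, star_add, star_sum, hQs] at t2
  have t3 : ∑ i, star (2 * Real.pi * Complex.I * (fr 0 (-k) i : ℂ) * ((U i (-k) + Em i (-k))
      + 2 * Real.pi * Complex.I * (fr 0 (-k) i : ℂ) * Dd (-k)))
      = ∑ i, 2 * Real.pi * Complex.I * (fr 0 k i : ℂ) * ((U i k + star (Em i (-k)))
      + 2 * Real.pi * Complex.I * (fr 0 k i : ℂ) * -Dd k) := by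
    refine Finset.sum_congr rfl fun i _ => ?_
    rw [star_mul', star_fac, star_add, star_add, star_mul', star_fac, hUs, hDs]
  rw [t3] at t2
  have t4 : 2 * (2 * Real.pi * Complex.I * ∑ i, (fr 0 k i : ℂ) * U i k)
      = -(∑ i, 2 * Real.pi * Complex.I * (fr 0 k i : ℂ) * (Em i k + star (Em i (-k)))
        + (Pp k + star (Pp (-k)))) := by
    rw [eq_neg_iff_add_eq_zero]
    have t5 : 2 * (2 * Real.pi * Complex.I * ∑ i, (fr 0 k i : ℂ) * U i k)
        + ∑ i, 2 * Real.pi * Complex.I * (fr 0 k i : ℂ) * (Em i k + star (Em i (-k)))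
        = ∑ i, 2 * Real.pi * Complex.I * (fr 0 k i : ℂ) * ((U i k + Em i k)
          + 2 * Real.pi * Complex.I * (fr 0 k i : ℂ) * Dd k)
        + ∑ i, 2 * Real.pi * Complex.I * (fr 0 k i : ℂ) * ((U i k + star (Em i (-k)))
          + 2 * Real.pi * Complex.I * (fr 0 k i : ℂ) * -Dd k) := by
      rw [Finset.mul_sum, Finset.mul_sum, ← Finset.sum_add_distrib, ← Finset.sum_add_distrib]
      exact Finset.sum_congr rfl fun i _ => by ring
    rw [← add_assoc, t5]
    linear_combination t1 + t2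
  have bE : ∀ i (l : Ix n), wt l = wt k → wt k ^ (n + 2) * ‖Em i l‖ ≤ N * e := by
    intro i l hl
    calc wt k ^ (n + 2) * ‖Em i l‖ ≤ wt k ^ (n + 2) * ∑ γ, ‖cf 0 (eM h G D τ i a γ γ) l‖ :=
          mul_le_mul_of_nonneg_left (norm_sum_le _ _) hW
      _ = ∑ γ, wt l ^ (n + 2) * ‖cf 0 (eM h G D τ i a γ γ) l‖ := by
          rw [Finset.mul_sum, hl]
      _ ≤ ∑ _γ : Fin N, e := Finset.sum_le_sum fun γ _ => be i a γ γ l
      _ = N * e := by simp
  have bP : ∀ (l : Ix n), wt l = wt k → wt k ^ (n + 2) * ‖Pp l‖ ≤ wt k * (N * e) := by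
    intro l hl
    calc wt k ^ (n + 2) * ‖Pp l‖
        ≤ wt k ^ (n + 2) * ∑ γ, ‖cf 0 (psM q G D κ a γ γ) l‖ :=
          mul_le_mul_of_nonneg_left (norm_sum_le _ _) hW
      _ = wt k * ∑ γ, wt l ^ (n + 1) * ‖cf 0 (psM q G D κ a γ γ) l‖ := by
          rw [← Finset.mul_sum, hl]
          ring
      _ ≤ wt k * ∑ _γ : Fin N, e :=
          mul_le_mul_of_nonneg_left (Finset.sum_le_sum fun γ _ => bp a γ γ l) hw.le
      _ = wt k * (N * e) := by simp
  have hX1 : 1 ≤ nr (fr 0 k) := one_le_nr_fr hk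
  have hwX : wt k ≤ (n + 1) * nr (fr 0 k) := wt_le_nr hk
  set X : ℝ := nr (fr 0 k) with hX
  have hX0 : 0 < X := by linarith
  have hNe : 0 ≤ N * e := mul_nonneg hN0 he
  have n1 : ‖2 * (2 * Real.pi * Complex.I * ∑ i, (fr 0 k i : ℂ) * U i k)‖
      = 2 * (2 * Real.pi) * ‖∑ i, (fr 0 k i : ℂ) * U i k‖ := by
    rw [norm_mul, norm_mul, norm_mul, norm_mul, Complex.norm_I, Complex.norm_real,
      Real.norm_eq_abs, abs_of_pos Real.pi_pos]
    simp only [Complex.norm_ofNat]
    ring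
  have n2 : wt k ^ (n + 2) * ‖∑ i, 2 * Real.pi * Complex.I * (fr 0 k i : ℂ)
      * (Em i k + star (Em i (-k)))‖ ≤ 2 * Real.pi * (n * X) * (2 * (N * e)) := by
    calc wt k ^ (n + 2) * ‖∑ i, 2 * Real.pi * Complex.I * (fr 0 k i : ℂ)
          * (Em i k + star (Em i (-k)))‖
        ≤ wt k ^ (n + 2) * ∑ i, 2 * Real.pi * |fr 0 k i| * (‖Em i k‖ + ‖Em i (-k)‖) := by
          refine mul_le_mul_of_nonneg_left ((norm_sum_le _ _).trans
            (Finset.sum_le_sum fun i _ => ?_)) hW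
          rw [norm_mul, norm_mul, norm_mul, norm_mul, Complex.norm_I, Complex.norm_real,
            Complex.norm_real, Real.norm_eq_abs, Real.norm_eq_abs, abs_of_pos Real.pi_pos,
            mul_one]
          have h5 : ‖Em i k + star (Em i (-k))‖ ≤ ‖Em i k‖ + ‖Em i (-k)‖ := by
            refine (norm_add_le _ _).trans ?_
            rw [norm_star]
          simp only [Complex.norm_ofNat]
          exact mul_le_mul_of_nonneg_left h5 (by positivity)
      _ = ∑ i, 2 * Real.pi * |fr 0 k i| * (wt k ^ (n + 2) * ‖Em i k‖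
          + wt k ^ (n + 2) * ‖Em i (-k)‖) := by
          rw [Finset.mul_sum]
          exact Finset.sum_congr rfl fun i _ => by ring
      _ ≤ ∑ i, 2 * Real.pi * |fr 0 k i| * (N * e + N * e) := by
          refine Finset.sum_le_sum fun i _ => ?_
          exact mul_le_mul_of_nonneg_left (add_le_add (bE i k rfl) (bE i (-k) (wt_neg k)))
            (by positivity)
      _ = 2 * Real.pi * (∑ i, |fr 0 k i|) * (2 * (N * e)) := by
          rw [Finset.mul_sum, Finset.sum_mul]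
          exact Finset.sum_congr rfl fun i _ => by ring
      _ ≤ 2 * Real.pi * (n * X) * (2 * (N * e)) := by
          refine mul_le_mul_of_nonneg_right ?_ (by positivity)
          exact mul_le_mul_of_nonneg_left (sum_abs_le _) (by positivity)
  have n3 : wt k ^ (n + 2) * ‖Pp k + star (Pp (-k))‖ ≤ 2 * ((n + 1) * X * (N * e)) := by
    calc wt k ^ (n + 2) * ‖Pp k + star (Pp (-k))‖
        ≤ wt k ^ (n + 2) * (‖Pp k‖ + ‖Pp (-k)‖) := by
          refine mul_le_mul_of_nonneg_left ((norm_add_le _ _).trans ?_) hW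
          rw [norm_star]
      _ = wt k ^ (n + 2) * ‖Pp k‖ + wt k ^ (n + 2) * ‖Pp (-k)‖ := by ring
      _ ≤ wt k * (N * e) + wt k * (N * e) := add_le_add (bP k rfl) (bP (-k) (wt_neg k))
      _ = 2 * (wt k * (N * e)) := by ring
      _ ≤ 2 * ((n + 1) * X * (N * e)) := by
          have := mul_le_mul_of_nonneg_right hwX hNe
          linarith
  have n4 : 2 * (2 * Real.pi) * (wt k ^ (n + 2) * ‖∑ i, (fr 0 k i : ℂ) * U i k‖)
      ≤ 2 * Real.pi * (n * X) * (2 * (N * e)) + 2 * ((n + 1) * X * (N * e)) := by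
    calc 2 * (2 * Real.pi) * (wt k ^ (n + 2) * ‖∑ i, (fr 0 k i : ℂ) * U i k‖)
        = wt k ^ (n + 2) * ‖2 * (2 * Real.pi * Complex.I * ∑ i, (fr 0 k i : ℂ) * U i k)‖ := by
          rw [n1]
          ring
      _ ≤ wt k ^ (n + 2) * ‖∑ i, 2 * Real.pi * Complex.I * (fr 0 k i : ℂ)
          * (Em i k + star (Em i (-k)))‖ + wt k ^ (n + 2) * ‖Pp k + star (Pp (-k))‖ := by
          rw [t4, norm_neg, ← mul_add]
          exact mul_le_mul_of_nonneg_left (norm_add_le _ _) hW
      _ ≤ _ := add_le_add n2 n3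
  have n5 : 2 * (2 * Real.pi) * (wt k ^ (n + 2) * ‖∑ i, (fr 0 k i : ℂ) * U i k‖)
      ≤ 2 * (2 * Real.pi) * ((2 * n + 1) * N * X * e) := by
    refine n4.trans ?_
    have h6 : 0 ≤ (n + 1) * X * (N * e) := by positivity
    have h7 : 2 * ((n + 1) * X * (N * e)) ≤ 2 * (2 * Real.pi) * ((n + 1) * X * (N * e)) := by
      refine mul_le_mul_of_nonneg_right ?_ h6
      linarith
    refine (add_le_add le_rfl h7).trans (le_of_eq ?_)
    ring
  exact le_of_mul_le_mul_left n5 (by positivity)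

end Vale.Agent.P088.LR.U.H641
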